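/-
P235-M, MIXING (helper882 row 2438), steps 1-3, by helper347.
Binary tree law of helper549 (Tree.lean), prefixes of a window, a pair `i < j` of strands at the
start of the window.  `FF t n z i j` = probability, given that the product over the window `t` is
`z`, that the product of the first `n` leaves inverts the pair.
`FF_le` (step 2): `z i < z j` implies `0 ≤ f ≤ u`, `f + u ≤ 1[z t ∈ t.set]`.
`FF_suffix` (step 3): `m ≤ n` implies `u_m ≤ 2 u_n` and `f_m + u_m ≤ 2 (f_n + u_n)`.
-/
import Vale.Agent.P235.R2.H549.Tree

namespace VPBruhat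

open Equiv Finset
open scoped Pointwise

variable {α : Type*} [LinearOrder α] [Fintype α]

namespace BT

/-- number of leaves -/
def size : BT α → ℕ
  | leaf _ => 1
  | node l r => l.size + r.size

omit [LinearOrder α] [Fintype α] in
theorem size_pos : (t : BT α) → 0 < t.size
  | leaf _ => Nat.one_pos
  | node l _ => Nat.add_pos_left (size_pos l) _

/-- product of the first `n` leaves -/
def pre : (t : BT α) → ℕ → t.Conf → Perm α
  | leaf _, n, x => if n = 0 then 1 else x
  | node l r, n, c => if n ≤ l.size then l.pre n c.1 else r.pre (n - l.size) c.2 * l.val c.1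

omit [LinearOrder α] [Fintype α] in
theorem pre_zero : (t : BT α) → (c : t.Conf) → t.pre 0 c = 1
  | leaf _, x => by simp [pre]
  | node l r, c => by
      rw [pre, if_pos (Nat.zero_le _)]; exact pre_zero l _

omit [LinearOrder α] [Fintype α] in
theorem pre_top : (t : BT α) → (n : ℕ) → (h : t.size ≤ n) → (c : t.Conf) → t.pre n c = t.val c
  | leaf _, n, h, x => by
      have : n ≠ 0 := by
        intro h0; subst h0; exact absurd h (by simp [size])
      simp only [pre, this]; rfl
  | node l r, n, h, c => by
      have h1 := size_pos r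
      have h2 : l.size + r.size ≤ n := h
      rw [pre, if_neg (by omega), pre_top r _ (by omega)]; rfl

omit [LinearOrder α] [Fintype α] in
theorem pre_node_left (l r : BT α) {n : ℕ} (h : n ≤ l.size) (c : (node l r).Conf) :
    (node l r).pre n c = l.pre n c.1 := by
  rw [pre, if_pos h]

omit [LinearOrder α] [Fintype α] in
theorem pre_node_right (l r : BT α) {n : ℕ} (h : l.size ≤ n) (c : (node l r).Conf) :
    (node l r).pre n c = r.pre (n - l.size) c.2 * l.val c.1 := by
  by_cases h' : n ≤ l.size
  · have : n = l.size := le_antisymm h' h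
    subst this
    rw [pre, if_pos le_rfl, Nat.sub_self, pre_zero, one_mul, pre_top l _ le_rfl]
  · rw [pre, if_neg h']

/-- probability that the prefix of length `n` inverts the pair `i, j`, given the product `z` -/
noncomputable def FF (t : BT α) (n : ℕ) (z : Perm α) (i j : α) : ℝ :=
  ∑ c, t.ker z c * (if t.pre n c j < t.pre n c i then 1 else 0)

theorem FF_nonneg (t : BT α) (n : ℕ) (z : Perm α) (i j : α) : 0 ≤ t.FF n z i j :=
  Finset.sum_nonneg fun c _ => mul_nonneg (ker_nonneg t z c) (by split_ifs <;> norm_num)

theorem FF_add (t : BT α) (n : ℕ) (z : Perm α) {i j : α} (hij : i ≠ j) :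
    t.FF n z i j + t.FF n z j i = ind t.set z := by
  unfold FF
  rw [← Finset.sum_add_distrib, ← sum_ker]
  refine Finset.sum_congr rfl fun c _ => ?_
  rw [← mul_add]
  have hne : t.pre n c i ≠ t.pre n c j := fun h => hij ((t.pre n c).injective h)
  rcases lt_or_gt_of_ne hne with h | h
  · rw [if_neg (not_lt.2 h.le), if_pos h]; ring
  · rw [if_pos h, if_neg (not_lt.2 h.le)]; ring

theorem FF_zero (t : BT α) (z : Perm α) {i j : α} (hij : i < j) : t.FF 0 z i j = 0 := by
  unfold FF
  refine Finset.sum_eq_zero fun c _ => ?_
  rw [pre_zero, if_neg (by simpa using hij.le), mul_zero]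

theorem FF_top (t : BT α) {n : ℕ} (h : t.size ≤ n) (z : Perm α) (i j : α) :
    t.FF n z i j = ind t.set z * (if z j < z i then 1 else 0) := by
  unfold FF
  rw [← sum_ker, Finset.sum_mul]
  refine Finset.sum_congr rfl fun c _ => ?_
  rw [pre_top t n h]
  by_cases hc : t.ker z c = 0
  · rw [hc]; simp
  · rw [(ker_ne_zero t z c hc).1]

/-- the kernel of a node as a sum over factorisations -/
theorem ker_node (l r : BT α) (z : Perm α) (a : l.Conf) (b : r.Conf) :
    (node l r).ker z (a, b) =
      (fac r.set l.set z)⁻¹ * ∑ x : Perm α, l.ker x a * r.ker (z * x⁻¹) b := by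
  show (if r.val b * l.val a = z then
    l.ker (l.val a) a * r.ker (r.val b) b / fac r.set l.set z else 0) = _
  rw [Finset.sum_eq_single (l.val a)]
  · by_cases h : r.val b * l.val a = z
    · rw [if_pos h]
      have : z * (l.val a)⁻¹ = r.val b := by rw [← h]; simp
      rw [this]; ring
    · rw [if_neg h]
      have : r.ker (z * (l.val a)⁻¹) b = 0 := by
        by_contra hc
        apply h
        have := (ker_ne_zero r _ _ hc).1
        rw [this]; simp
      rw [this]; ring
  · intro x _ hx
    have : l.ker x a = 0 := by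
      by_contra hc
      exact hx (ker_ne_zero l _ _ hc).1.symm
    rw [this]; ring
  · intro h; exact absurd (Finset.mem_univ _) h

theorem FF_node (l r : BT α) (n : ℕ) (z : Perm α) (i j : α) :
    (node l r).FF n z i j = (fac r.set l.set z)⁻¹ * ∑ x : Perm α, ∑ a, ∑ b,
      l.ker x a * r.ker (z * x⁻¹) b *
        (if (node l r).pre n (a, b) j < (node l r).pre n (a, b) i then 1 else 0) := by
  unfold FF
  show ∑ c : l.Conf × r.Conf, (node l r).ker z c *
    (if (node l r).pre n c j < (node l r).pre n c i then 1 else 0) = _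
  rw [Fintype.sum_prod_type, Finset.mul_sum]
  have e : ∀ a : l.Conf, ∀ b : r.Conf, (node l r).ker z (a, b) *
      (if (node l r).pre n (a, b) j < (node l r).pre n (a, b) i then (1 : ℝ) else 0) =
      ∑ x : Perm α, (fac r.set l.set z)⁻¹ * (l.ker x a * r.ker (z * x⁻¹) b *
        (if (node l r).pre n (a, b) j < (node l r).pre n (a, b) i then 1 else 0)) := by
    intro a b
    rw [ker_node, Finset.mul_sum, Finset.sum_mul]
    refine Finset.sum_congr rfl fun x _ => ?_
    ring
  rw [Finset.sum_congr rfl fun a _ => Finset.sum_congr rfl fun b _ => e a b]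
  rw [Finset.sum_congr rfl fun a _ => Finset.sum_comm, Finset.sum_comm]
  refine Finset.sum_congr rfl fun x _ => ?_
  rw [Finset.mul_sum]
  refine Finset.sum_congr rfl fun a _ => ?_
  rw [Finset.mul_sum]

theorem FF_node_left (l r : BT α) {n : ℕ} (h : n ≤ l.size) (z : Perm α) (i j : α) :
    (node l r).FF n z i j = (fac r.set l.set z)⁻¹ *
      ∑ x : Perm α, l.FF n x i j * ind r.set (z * x⁻¹) := by
  rw [FF_node]
  congr 1
  refine Finset.sum_congr rfl fun x _ => ?_
  unfold FF
  rw [← sum_ker, Finset.sum_mul_sum]
  refine Finset.sum_congr rfl fun a _ => Finset.sum_congr rfl fun b _ => ?_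
  have e : (node l r).pre n (a, b) = l.pre n a := pre_node_left l r h (a, b)
  rw [e]
  ring

theorem FF_node_right (l r : BT α) {n : ℕ} (h : l.size ≤ n) (z : Perm α) (i j : α) :
    (node l r).FF n z i j = (fac r.set l.set z)⁻¹ *
      ∑ x : Perm α, ind l.set x * r.FF (n - l.size) (z * x⁻¹) (x i) (x j) := by
  rw [FF_node]
  congr 1
  refine Finset.sum_congr rfl fun x _ => ?_
  unfold FF
  rw [← sum_ker, Finset.sum_mul_sum]
  refine Finset.sum_congr rfl fun a _ => Finset.sum_congr rfl fun b _ => ?_
  have e : (node l r).pre n (a, b) = r.pre (n - l.size) b * l.val a :=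
    pre_node_right l r h (a, b)
  rw [e]
  by_cases hc : l.ker x a = 0
  · rw [hc]; ring
  · have := (ker_ne_zero l _ _ hc).1
    simp only [Perm.mul_apply, this]
    ring

end BT

/-! ### the pairing `x ↔ x * swap i j` -/

theorem sum_pair (g : Perm α → ℝ) {i j : α} (hij : i < j) :
    ∑ x, g x = ∑ x with (x : Perm α) i < x j, (g x + g (x * swap i j)) := by
  classical
  rw [← Finset.sum_filter_add_sum_filter_not (s := (Finset.univ : Finset (Perm α)))
    (p := fun x => x i < x j), Finset.sum_add_distrib]
  congr 1
  refine Finset.sum_bij' (fun x _ => x * swap i j) (fun x _ => x * swap i j) ?_ ?_ ?_ ?_ ?_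
  · intro x hx
    rw [Finset.mem_filter] at hx ⊢
    refine ⟨Finset.mem_univ _, ?_⟩
    have hne : x i ≠ x j := fun h => hij.ne (x.injective h)
    simpa using lt_of_le_of_ne (not_lt.1 hx.2) hne.symm
  · intro x hx
    rw [Finset.mem_filter] at hx ⊢
    refine ⟨Finset.mem_univ _, ?_⟩
    simpa using hx.2.le
  · intro x _; rw [mul_assoc, swap_mul_self, mul_one]
  · intro x _; rw [mul_assoc, swap_mul_self, mul_one]
  · intro x _; rw [mul_assoc, swap_mul_self, mul_one]

omit [Fintype α] in
theorem swap_conj (z x : Perm α) (i j : α) :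
    z * swap i j * x⁻¹ = z * x⁻¹ * swap (x i) (x j) := by
  have h := mul_swap_eq x i j
  have h2 : swap i j * x⁻¹ = x⁻¹ * swap (x i) (x j) := by
    have : x⁻¹ * (x * swap i j) * x⁻¹ = x⁻¹ * (swap (x i) (x j) * x) * x⁻¹ := by rw [h]
    simpa [mul_assoc] using this
  rw [mul_assoc, h2, mul_assoc]

omit [Fintype α] in
theorem up_right {z x : Perm α} {i j : α} (hz : z i < z j) (hx : x i < x j) :
    Up (z * x⁻¹) (z * swap i j * x⁻¹) := by
  refine ⟨x i, x j, hx, by simpa using hz, ?_⟩
  rw [swap_conj]

theorem ind_le_one (B : Finset (Perm α)) (x : Perm α) : ind B x ≤ 1 := by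
  unfold ind; split_ifs <;> norm_num

theorem ind_eq_zero_or_one (B : Finset (Perm α)) (x : Perm α) : ind B x = 0 ∨ ind B x = 1 := by
  unfold ind; split_ifs
  · exact Or.inr rfl
  · exact Or.inl rfl

/-- number of factorisations as a sum over the right factor -/
theorem fac_eq_sum (B₂ B₁ : Finset (Perm α)) (z : Perm α) :
    fac B₂ B₁ z = ∑ x : Perm α, ind B₁ x * ind B₂ (z * x⁻¹) := by
  unfold fac
  refine Fintype.sum_equiv ((Equiv.inv (Perm α)).trans (Equiv.mulRight z)) _ _ fun y => ?_
  simp [mul_comm]

theorem fac_pair_z {B₂ B₁ : Finset (Perm α)} {z : Perm α} {i j : α} (hij : i < j) :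
    fac B₂ B₁ z = ∑ x with (x : Perm α) i < x j,
      (ind B₁ x * ind B₂ (z * x⁻¹) + ind B₁ (x * swap i j) * ind B₂ (z * swap i j * x⁻¹)) := by
  rw [fac_eq_sum, sum_pair _ hij]
  refine Finset.sum_congr rfl fun x _ => ?_
  rw [mul_inv_rev, swap_inv, mul_assoc z (swap i j)]

theorem fac_pair_zt {B₂ B₁ : Finset (Perm α)} {z : Perm α} {i j : α} (hij : i < j) :
    fac B₂ B₁ (z * swap i j) = ∑ x with (x : Perm α) i < x j,
      (ind B₁ x * ind B₂ (z * swap i j * x⁻¹) + ind B₁ (x * swap i j) * ind B₂ (z * x⁻¹)) := by
  rw [fac_eq_sum, sum_pair _ hij]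
  refine Finset.sum_congr rfl fun x _ => ?_
  have : z * swap i j * (x * swap i j)⁻¹ = z * x⁻¹ := by
    rw [mul_inv_rev, swap_inv, ← mul_assoc, mul_assoc z, swap_mul_self, mul_one]
  rw [this]

namespace BT

theorem FF_pair_left_z (l r : BT α) {n : ℕ} (h : n ≤ l.size) (z : Perm α) {i j : α}
    (hij : i < j) :
    (node l r).FF n z i j = (fac r.set l.set z)⁻¹ * ∑ x with (x : Perm α) i < x j,
      (l.FF n x i j * ind r.set (z * x⁻¹) +
        l.FF n (x * swap i j) i j * ind r.set (z * swap i j * x⁻¹)) := by
  rw [FF_node_left l r h, sum_pair _ hij]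
  refine congrArg _ (Finset.sum_congr rfl fun x _ => ?_)
  rw [mul_inv_rev, swap_inv, mul_assoc z (swap i j)]

theorem FF_pair_left_zt (l r : BT α) {n : ℕ} (h : n ≤ l.size) (z : Perm α) {i j : α}
    (hij : i < j) :
    (node l r).FF n (z * swap i j) i j = (fac r.set l.set (z * swap i j))⁻¹ *
      ∑ x with (x : Perm α) i < x j,
      (l.FF n x i j * ind r.set (z * swap i j * x⁻¹) +
        l.FF n (x * swap i j) i j * ind r.set (z * x⁻¹)) := by
  rw [FF_node_left l r h, sum_pair _ hij]
  congr 1
  refine Finset.sum_congr rfl fun x _ => ?_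
  have : z * swap i j * (x * swap i j)⁻¹ = z * x⁻¹ := by
    rw [mul_inv_rev, swap_inv, ← mul_assoc, mul_assoc z, swap_mul_self, mul_one]
  rw [this]

theorem FF_pair_right_z (l r : BT α) {n : ℕ} (h : l.size ≤ n) (z : Perm α) {i j : α}
    (hij : i < j) :
    (node l r).FF n z i j = (fac r.set l.set z)⁻¹ * ∑ x with (x : Perm α) i < x j,
      (ind l.set x * r.FF (n - l.size) (z * x⁻¹) (x i) (x j) +
        ind l.set (x * swap i j) * (ind r.set (z * swap i j * x⁻¹) -
          r.FF (n - l.size) (z * swap i j * x⁻¹) (x i) (x j))) := by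
  rw [FF_node_right l r h, sum_pair _ hij]
  congr 1
  refine Finset.sum_congr rfl fun x hx => ?_
  rw [Finset.mem_filter] at hx
  have e1 : z * (x * swap i j)⁻¹ = z * swap i j * x⁻¹ := by
    rw [mul_inv_rev, swap_inv, mul_assoc z (swap i j)]
  rw [e1]
  have e2 : (x * swap i j) i = x j := by simp
  have e3 : (x * swap i j) j = x i := by simp
  rw [e2, e3]
  have h2 := FF_add r (n - l.size) (z * swap i j * x⁻¹) hx.2.ne
  rw [← h2]; ring

theorem FF_pair_right_zt (l r : BT α) {n : ℕ} (h : l.size ≤ n) (z : Perm α) {i j : α}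
    (hij : i < j) :
    (node l r).FF n (z * swap i j) i j = (fac r.set l.set (z * swap i j))⁻¹ *
      ∑ x with (x : Perm α) i < x j,
      (ind l.set x * r.FF (n - l.size) (z * swap i j * x⁻¹) (x i) (x j) +
        ind l.set (x * swap i j) * (ind r.set (z * x⁻¹) -
          r.FF (n - l.size) (z * x⁻¹) (x i) (x j))) := by
  rw [FF_node_right l r h, sum_pair _ hij]
  congr 1
  refine Finset.sum_congr rfl fun x hx => ?_
  rw [Finset.mem_filter] at hx
  have e1 : z * swap i j * (x * swap i j)⁻¹ = z * x⁻¹ := by
    rw [mul_inv_rev, swap_inv, ← mul_assoc, mul_assoc z, swap_mul_self, mul_one]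
  rw [e1]
  have e2 : (x * swap i j) i = x j := by simp
  have e3 : (x * swap i j) j = x i := by simp
  rw [e2, e3]
  have h2 := FF_add r (n - l.size) (z * x⁻¹) hx.2.ne
  rw [← h2]; ring

/-- the two indicator inequalities -/
theorem ind_pair {B : Finset (Perm α)} (hB : IsDown B) {x : Perm α} {i j : α} (hij : i < j)
    (hx : x i < x j) : ind B (x * swap i j) ≤ ind B x :=
  ind_dec hB _ _ ⟨i, j, hij, hx, rfl⟩

theorem ind_pair_right {B : Finset (Perm α)} (hB : IsDown B) {z x : Perm α} {i j : α}
    (hz : z i < z j) (hx : x i < x j) :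
    ind B (z * swap i j * x⁻¹) ≤ ind B (z * x⁻¹) :=
  ind_dec hB _ _ (up_right hz hx)

/-- **Step 2.**  For `z i < z j`: `f ≤ u` and `f + u ≤ 1[z t ∈ t.set]`, where `f`, `u` are the
probabilities that the prefix inverts the pair given the products `z` and `z t`. -/
theorem FF_le : (t : BT α) → t.Ok → (n : ℕ) → (z : Perm α) → (i j : α) → i < j → z i < z j →
    t.FF n z i j ≤ t.FF n (z * swap i j) i j ∧
    t.FF n z i j + t.FF n (z * swap i j) i j ≤ ind t.set (z * swap i j)
  | leaf B, hok, n, z, i, j, hij, hz => by
      rcases Nat.eq_zero_or_pos n with rfl | hn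
      · rw [FF_zero _ _ hij, FF_zero _ _ hij]
        exact ⟨le_rfl, by simpa using ind_nonneg _ _⟩
      · rw [FF_top (leaf B) (n := n) hn, FF_top (leaf B) (n := n) hn]
        have h1 : ¬ z j < z i := not_lt.2 hz.le
        have h2 : (z * swap i j) j < (z * swap i j) i := by simpa using hz
        rw [if_neg h1, if_pos h2]
        constructor
        · simpa using ind_nonneg _ _
        · simp
  | node l r, hok, n, z, i, j, hij, hz => by
      have hdl := isDown_set hok.1
      have hdr := isDown_set hok.2
      set N := fac r.set l.set z with hN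
      set M := fac r.set l.set (z * swap i j) with hM
      have hMN : M ≤ N := fac_dec hdr hdl _ _ ⟨i, j, hij, hz, rfl⟩
      have hM0 : 0 ≤ M := fac_nonneg _ _ _
      -- abstract form of both cases
      have key : ∀ X Y : ℝ, (node l r).FF n z i j = N⁻¹ * X →
          (node l r).FF n (z * swap i j) i j = M⁻¹ * Y → 0 ≤ X → X ≤ Y → X + Y ≤ M →
          (node l r).FF n z i j ≤ (node l r).FF n (z * swap i j) i j ∧
          (node l r).FF n z i j + (node l r).FF n (z * swap i j) i j ≤
            ind (node l r).set (z * swap i j) := by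
        intro X Y hX hY h0 h1 h2
        rcases hM0.eq_or_lt with hm | hm
        · have hX0 : X = 0 := by linarith
          have hY0 : Y = 0 := by linarith
          rw [hX, hY, hX0, hY0]
          exact ⟨by simp, by simpa using ind_nonneg _ _⟩
        · have hNpos : 0 < N := lt_of_lt_of_le hm hMN
          have hmem : z * swap i j ∈ r.set * l.set := fac_pos_iff.1 hm
          have e1 : ind (node l r).set (z * swap i j) = 1 := if_pos hmem
          have hXM : N⁻¹ * X ≤ M⁻¹ * X :=
            mul_le_mul_of_nonneg_right (inv_anti₀ hm hMN) h0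
          have hinv : 0 ≤ M⁻¹ := inv_nonneg.2 hM0
          rw [hX, hY, e1]
          constructor
          · exact hXM.trans (mul_le_mul_of_nonneg_left h1 hinv)
          · calc N⁻¹ * X + M⁻¹ * Y ≤ M⁻¹ * X + M⁻¹ * Y := by linarith
              _ = M⁻¹ * (X + Y) := by ring
              _ ≤ M⁻¹ * M := mul_le_mul_of_nonneg_left h2 hinv
              _ = 1 := inv_mul_cancel₀ hm.ne'
      rcases Nat.le_total n l.size with hn | hn
      · refine key _ _ (FF_pair_left_z l r hn z hij) (FF_pair_left_zt l r hn z hij) ?_ ?_ ?_
        · exact Finset.sum_nonneg fun x _ => add_nonneg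
            (mul_nonneg (FF_nonneg _ _ _ _ _) (ind_nonneg _ _))
            (mul_nonneg (FF_nonneg _ _ _ _ _) (ind_nonneg _ _))
        · refine Finset.sum_le_sum fun x hx => ?_
          have hx' := (Finset.mem_filter.1 hx).2
          have ih := (FF_le l hok.1 n x i j hij hx').1
          have hb := ind_pair_right hdr hz hx'
          nlinarith [mul_nonneg (sub_nonneg.2 ih) (sub_nonneg.2 hb)]
        · rw [hM, fac_pair_zt hij, ← Finset.sum_add_distrib]
          refine Finset.sum_le_sum fun x hx => ?_
          have hx' := (Finset.mem_filter.1 hx).2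
          have ih := (FF_le l hok.1 n x i j hij hx').2
          have ha := ind_pair hdl hij hx'
          have hB1 := ind_nonneg r.set (z * x⁻¹)
          have hB2 := ind_nonneg r.set (z * swap i j * x⁻¹)
          nlinarith [mul_nonneg (sub_nonneg.2 ih) (add_nonneg hB1 hB2),
            mul_nonneg (sub_nonneg.2 ha) hB2]
      · refine key _ _ (FF_pair_right_z l r hn z hij) (FF_pair_right_zt l r hn z hij) ?_ ?_ ?_
        · refine Finset.sum_nonneg fun x hx => ?_
          have hx' := (Finset.mem_filter.1 hx).2
          have ih := (FF_le r hok.2 (n - l.size) (z * x⁻¹) (x i) (x j) hx' (by simpa using hz)).2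
          rw [← swap_conj] at ih
          have h1 := FF_nonneg r (n - l.size) (z * x⁻¹) (x i) (x j)
          exact add_nonneg (mul_nonneg (ind_nonneg _ _) h1)
            (mul_nonneg (ind_nonneg _ _) (by linarith))
        · refine Finset.sum_le_sum fun x hx => ?_
          have hx' := (Finset.mem_filter.1 hx).2
          have ih := (FF_le r hok.2 (n - l.size) (z * x⁻¹) (x i) (x j) hx' (by simpa using hz)).1
          rw [← swap_conj] at ih
          have hb := ind_pair_right hdr hz hx'
          have hA0 := ind_nonneg l.set x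
          have hA1 := ind_nonneg l.set (x * swap i j)
          nlinarith [mul_nonneg hA0 (sub_nonneg.2 ih), mul_nonneg hA1 (sub_nonneg.2 ih),
            mul_nonneg hA1 (sub_nonneg.2 hb)]
        · rw [hM, fac_pair_zt hij, ← Finset.sum_add_distrib]
          refine Finset.sum_le_sum fun x hx => ?_
          have hx' := (Finset.mem_filter.1 hx).2
          have ih := (FF_le r hok.2 (n - l.size) (z * x⁻¹) (x i) (x j) hx' (by simpa using hz)).2
          rw [← swap_conj] at ih
          have ha := ind_pair hdl hij hx'
          nlinarith [mul_nonneg (sub_nonneg.2 ha) (sub_nonneg.2 ih)]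

/-- **Step 3.**  Suffix monotonicity (here: prefixes, pair at the start): for `m ≤ n`
`u_m ≤ 2 u_n` and `f_m + u_m ≤ 2 (f_n + u_n)`. -/
theorem FF_mono : (t : BT α) → t.Ok → (m n : ℕ) → m ≤ n → (z : Perm α) → (i j : α) → i < j →
    z i < z j →
    t.FF m (z * swap i j) i j ≤ 2 * t.FF n (z * swap i j) i j ∧
    t.FF m z i j + t.FF m (z * swap i j) i j ≤
      2 * (t.FF n z i j + t.FF n (z * swap i j) i j)
  | leaf B, hok, m, n, hmn, z, i, j, hij, hz => by
      rcases Nat.eq_zero_or_pos m with rfl | hm
      · rw [FF_zero _ _ hij, FF_zero _ _ hij]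
        have h1 := FF_nonneg (leaf B) n z i j
        have h2 := FF_nonneg (leaf B) n (z * swap i j) i j
        constructor <;> linarith
      · have hn : 0 < n := lt_of_lt_of_le hm hmn
        rw [FF_top (leaf B) (n := n) hn, FF_top (leaf B) (n := n) hn,
          FF_top (leaf B) (n := m) hm, FF_top (leaf B) (n := m) hm]
        have h1 : 0 ≤ ind (leaf B : BT α).set z * (if z j < z i then (1 : ℝ) else 0) :=
          mul_nonneg (ind_nonneg _ _) (by split_ifs <;> norm_num)
        have h2 : 0 ≤ ind (leaf B : BT α).set (z * swap i j) *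
            (if (z * swap i j) j < (z * swap i j) i then (1 : ℝ) else 0) :=
          mul_nonneg (ind_nonneg _ _) (by split_ifs <;> norm_num)
        constructor <;> linarith
  | node l r, hok, m, n, hmn, z, i, j, hij, hz => by
      have hdl := isDown_set hok.1
      have hdr := isDown_set hok.2
      set N := fac r.set l.set z with hN
      set M := fac r.set l.set (z * swap i j) with hM
      have hMN : M ≤ N := fac_dec hdr hdl _ _ ⟨i, j, hij, hz, rfl⟩
      have hM0 : 0 ≤ M := fac_nonneg _ _ _
      have fn0 := FF_nonneg (node l r) n z i j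
      have un0 := FF_nonneg (node l r) n (z * swap i j) i j
      rcases hM0.eq_or_lt with hm | hMpos
      · -- both conditional laws give probability zero
        have h1 := (FF_le (node l r) hok m z i j hij hz).2
        have hz' : ind (node l r).set (z * swap i j) = 0 := by
          refine if_neg fun hc => ?_
          exact absurd hm (fac_pos_iff.2 hc).ne
        rw [hz'] at h1
        have fm0 := FF_nonneg (node l r) m z i j
        have um0 := FF_nonneg (node l r) m (z * swap i j) i j
        constructor <;> linarith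
      have hNpos : 0 < N := lt_of_lt_of_le hMpos hMN
      have ha0 : 0 ≤ N⁻¹ := (inv_pos.2 hNpos).le
      have hab : N⁻¹ ≤ M⁻¹ := inv_anti₀ hMpos hMN
      have hb0 : 0 ≤ M⁻¹ := (inv_pos.2 hMpos).le
      rcases Nat.le_total n l.size with hn | hn
      · -- both cuts in the left child
        have hm : m ≤ l.size := hmn.trans hn
        rw [FF_pair_left_z l r hn z hij, FF_pair_left_zt l r hn z hij,
          FF_pair_left_z l r hm z hij, FF_pair_left_zt l r hm z hij]
        constructor
        · rw [← mul_assoc, mul_comm 2, mul_assoc]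
          refine mul_le_mul_of_nonneg_left ?_ hb0
          rw [Finset.mul_sum]
          refine Finset.sum_le_sum fun x hx => ?_
          have hx' := (Finset.mem_filter.1 hx).2
          obtain ⟨ih1, ih2⟩ := FF_mono l hok.1 m n hmn x i j hij hx'
          have hb := ind_pair_right hdr hz hx'
          have hB1 := ind_nonneg r.set (z * swap i j * x⁻¹)
          nlinarith [mul_nonneg (sub_nonneg.2 ih2) hB1,
            mul_nonneg (sub_nonneg.2 ih1) (sub_nonneg.2 hb)]
        · rw [mul_add, Finset.mul_sum, Finset.mul_sum, Finset.mul_sum, Finset.mul_sum,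
            ← Finset.sum_add_distrib, Finset.mul_sum, Finset.mul_sum, ← Finset.sum_add_distrib]
          refine Finset.sum_le_sum fun x hx => ?_
          have hx' := (Finset.mem_filter.1 hx).2
          obtain ⟨ih1, ih2⟩ := FF_mono l hok.1 m n hmn x i j hij hx'
          have hb := ind_pair_right hdr hz hx'
          have hB1 := ind_nonneg r.set (z * swap i j * x⁻¹)
          have hB0 := ind_nonneg r.set (z * x⁻¹)
          have h1 := mul_nonneg (sub_nonneg.2 ih2)
            (add_nonneg (mul_nonneg ha0 hB0) (mul_nonneg hb0 hB1))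
          have h2 := mul_nonneg (sub_nonneg.2 ih1)
            (mul_nonneg (sub_nonneg.2 hab) (sub_nonneg.2 hb))
          nlinarith [h1, h2]
      rcases Nat.le_total l.size m with hm | hm
      · -- both cuts in the right child
        rw [FF_pair_right_z l r hn z hij, FF_pair_right_zt l r hn z hij,
          FF_pair_right_z l r hm z hij, FF_pair_right_zt l r hm z hij]
        constructor
        · rw [← mul_assoc, mul_comm 2, mul_assoc]
          refine mul_le_mul_of_nonneg_left ?_ hb0
          rw [Finset.mul_sum]
          refine Finset.sum_le_sum fun x hx => ?_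
          have hx' := (Finset.mem_filter.1 hx).2
          obtain ⟨ih1, ih2⟩ := FF_mono r hok.2 (m - l.size) (n - l.size) (by omega) (z * x⁻¹)
            (x i) (x j) hx' (by simpa using hz)
          obtain ⟨g1, g2⟩ := FF_le r hok.2 (n - l.size) (z * x⁻¹) (x i) (x j) hx'
            (by simpa using hz)
          rw [← swap_conj] at ih1 ih2 g1 g2
          have hb := ind_pair_right hdr hz hx'
          have hA0 := ind_nonneg l.set x
          have hA1 := ind_nonneg l.set (x * swap i j)
          have fm0 := FF_nonneg r (m - l.size) (z * x⁻¹) (x i) (x j)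
          have h1 := mul_nonneg hA0 (sub_nonneg.2 ih1)
          have h3 : ind r.set (z * x⁻¹) - r.FF (m - l.size) (z * x⁻¹) (x i) (x j) ≤
              2 * (ind r.set (z * x⁻¹) - r.FF (n - l.size) (z * x⁻¹) (x i) (x j)) := by
            linarith
          have h2 := mul_nonneg hA1 (sub_nonneg.2 h3)
          nlinarith [h1, h2]
        · rw [mul_add, Finset.mul_sum, Finset.mul_sum, Finset.mul_sum, Finset.mul_sum,
            ← Finset.sum_add_distrib, Finset.mul_sum, Finset.mul_sum, ← Finset.sum_add_distrib]
          refine Finset.sum_le_sum fun x hx => ?_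
          have hx' := (Finset.mem_filter.1 hx).2
          obtain ⟨ih1, ih2⟩ := FF_mono r hok.2 (m - l.size) (n - l.size) (by omega) (z * x⁻¹)
            (x i) (x j) hx' (by simpa using hz)
          obtain ⟨g1, g2⟩ := FF_le r hok.2 (n - l.size) (z * x⁻¹) (x i) (x j) hx'
            (by simpa using hz)
          rw [← swap_conj] at ih1 ih2 g1 g2
          have hb := ind_pair_right hdr hz hx'
          have hA0 := ind_nonneg l.set x
          have hA1 := ind_nonneg l.set (x * swap i j)
          have fm0 := FF_nonneg r (m - l.size) (z * x⁻¹) (x i) (x j)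
          have um0 := FF_nonneg r (m - l.size) (z * swap i j * x⁻¹) (x i) (x j)
          have hB1 := ind_nonneg r.set (z * swap i j * x⁻¹)
          set B0 := ind r.set (z * x⁻¹)
          set B1 := ind r.set (z * swap i j * x⁻¹)
          set A0 := ind l.set x
          set A1 := ind l.set (x * swap i j)
          set fm := r.FF (m - l.size) (z * x⁻¹) (x i) (x j)
          set um := r.FF (m - l.size) (z * swap i j * x⁻¹) (x i) (x j)
          set fn := r.FF (n - l.size) (z * x⁻¹) (x i) (x j)
          set un := r.FF (n - l.size) (z * swap i j * x⁻¹) (x i) (x j)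
          set a := N⁻¹
          set b := M⁻¹
          -- first part
          have k1 : a * fm + b * um ≤ 2 * (a * fn + b * un) := by
            have q1 := mul_nonneg ha0 (sub_nonneg.2 ih2)
            have q2 := mul_nonneg (sub_nonneg.2 hab) (sub_nonneg.2 ih1)
            nlinarith [q1, q2]
          have k2 : 2 * (a * un + b * fn) ≤ a * B1 + b * B0 := by
            have q1 := mul_nonneg ha0 (sub_nonneg.2 g2)
            have q2 : 2 * fn ≤ B1 := by linarith
            have q3 := mul_nonneg (sub_nonneg.2 hab) (sub_nonneg.2 q2)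
            have q4 := mul_nonneg hb0 (sub_nonneg.2 hb)
            nlinarith [q1, q3, q4]
          have k3 : a * (B1 - um) + b * (B0 - fm) ≤ 2 * (a * (B1 - un) + b * (B0 - fn)) := by
            have q1 := mul_nonneg ha0 um0
            have q2 := mul_nonneg hb0 fm0
            nlinarith [q1, q2, k2]
          have p1 := mul_nonneg hA0 (sub_nonneg.2 k1)
          have p2 := mul_nonneg hA1 (sub_nonneg.2 k3)
          nlinarith [p1, p2]
      · -- the split separates the cuts
        set Q : ℝ := ∑ x with (x : Perm α) i < x j,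
          ind l.set (x * swap i j) * ind r.set (z * x⁻¹) with hQ
        have hum : (node l r).FF m (z * swap i j) i j ≤ M⁻¹ * Q := by
          rw [FF_pair_left_zt l r hm z hij]
          refine mul_le_mul_of_nonneg_left (Finset.sum_le_sum fun x hx => ?_) hb0
          have hx' := (Finset.mem_filter.1 hx).2
          have g2 := (FF_le l hok.1 m x i j hij hx').2
          have hb := ind_pair_right hdr hz hx'
          have hB0 := ind_nonneg r.set (z * x⁻¹)
          have h1 := mul_nonneg (FF_nonneg l m x i j) (sub_nonneg.2 hb)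
          have h2 := mul_nonneg (sub_nonneg.2 g2) hB0
          nlinarith [h1, h2]
        have hQ0 : 0 ≤ Q := Finset.sum_nonneg fun x _ => mul_nonneg (ind_nonneg _ _) (ind_nonneg _ _)
        have hfm : (node l r).FF m z i j ≤ M⁻¹ * Q := by
          refine le_trans ?_ (mul_le_mul_of_nonneg_right hab hQ0)
          rw [FF_pair_left_z l r hm z hij]
          refine mul_le_mul_of_nonneg_left (Finset.sum_le_sum fun x hx => ?_) ha0
          have hx' := (Finset.mem_filter.1 hx).2
          have g2 := (FF_le l hok.1 m x i j hij hx').2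
          have hb := ind_pair_right hdr hz hx'
          have hB0 := ind_nonneg r.set (z * x⁻¹)
          have h1 := mul_nonneg (FF_nonneg l m (x * swap i j) i j) (sub_nonneg.2 hb)
          have h2 := mul_nonneg (sub_nonneg.2 g2) hB0
          nlinarith [h1, h2]
        have hun : M⁻¹ * Q ≤ (node l r).FF n (z * swap i j) i j := by
          rw [FF_pair_right_zt l r hn z hij]
          refine mul_le_mul_of_nonneg_left (Finset.sum_le_sum fun x hx => ?_) hb0
          have hx' := (Finset.mem_filter.1 hx).2
          obtain ⟨g1, g2⟩ := FF_le r hok.2 (n - l.size) (z * x⁻¹) (x i) (x j) hx'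
            (by simpa using hz)
          rw [← swap_conj] at g1 g2
          have ha := ind_pair hdl hij hx'
          have hA1 := ind_nonneg l.set (x * swap i j)
          have u0 := FF_nonneg r (n - l.size) (z * swap i j * x⁻¹) (x i) (x j)
          have h1 := mul_nonneg (sub_nonneg.2 ha) u0
          have h2 := mul_nonneg hA1 (sub_nonneg.2 g1)
          nlinarith [h1, h2]
        constructor <;> linarith

end BT

end VPBruhat
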