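/-
P235-M, MIXING, step 3' of helper882 (= Theorem (I) of helper342, row 2562), by helper347.
Prefix monotonicity of the binary tree law: if the root law is nonnegative and increasing and the
leaf number `n` is a letter `{1, s}`, then `E F(pre n) ≤ E F(pre (n+1))` for increasing `F`.
-/
import Vale.Agent.P235.R2.H347.Mix

namespace VPBruhat

open Equiv Finset
open scoped Pointwise

variable {α : Type*} [LinearOrder α] [Fintype α]

namespace BT

/-- expectation of a function of two consecutive prefixes, given the product `z` -/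
noncomputable def EE (t : BT α) (n : ℕ) (φ : Perm α → Perm α → ℝ) (z : Perm α) : ℝ :=
  ∑ c, t.ker z c * φ (t.pre n c) (t.pre (n + 1) c)

theorem EE_abs_le (t : BT α) (n : ℕ) {φ : Perm α → Perm α → ℝ} (hφ : ∀ u v, |φ u v| ≤ 1)
    (z : Perm α) : |t.EE n φ z| ≤ ind t.set z := by
  unfold EE
  rw [← sum_ker]
  refine (Finset.abs_sum_le_sum_abs _ _).trans (Finset.sum_le_sum fun c _ => ?_)
  rw [abs_mul, abs_of_nonneg (ker_nonneg t z c)]
  exact mul_le_of_le_one_right (ker_nonneg t z c) (hφ _ _)

theorem EE_node (l r : BT α) (n : ℕ) (φ : Perm α → Perm α → ℝ) (z : Perm α) :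
    (node l r).EE n φ z = (fac r.set l.set z)⁻¹ * ∑ x : Perm α, ∑ a, ∑ b,
      l.ker x a * r.ker (z * x⁻¹) b *
        φ ((node l r).pre n (a, b)) ((node l r).pre (n + 1) (a, b)) := by
  unfold EE
  show ∑ c : l.Conf × r.Conf, (node l r).ker z c *
    φ ((node l r).pre n c) ((node l r).pre (n + 1) c) = _
  rw [Fintype.sum_prod_type, Finset.mul_sum]
  have e : ∀ a : l.Conf, ∀ b : r.Conf, (node l r).ker z (a, b) *
      φ ((node l r).pre n (a, b)) ((node l r).pre (n + 1) (a, b)) =
      ∑ x : Perm α, (fac r.set l.set z)⁻¹ * (l.ker x a * r.ker (z * x⁻¹) b *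
        φ ((node l r).pre n (a, b)) ((node l r).pre (n + 1) (a, b))) := by
    intro a b
    rw [ker_node, Finset.mul_sum, Finset.sum_mul]
    refine Finset.sum_congr rfl fun x _ => ?_
    ring
  rw [Finset.sum_congr rfl fun a _ => Finset.sum_congr rfl fun b _ => e a b]
  rw [Finset.sum_congr rfl fun a _ => Finset.sum_comm, Finset.sum_comm]
  refine Finset.sum_congr rfl fun x _ => ?_
  rw [Finset.mul_sum]
  refine Finset.sum_congr rfl fun a _ => ?_
  rw [Finset.mul_sum]

theorem EE_node_left (l r : BT α) {n : ℕ} (h : n + 1 ≤ l.size) (φ : Perm α → Perm α → ℝ)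
    (z : Perm α) :
    (node l r).EE n φ z = (fac r.set l.set z)⁻¹ *
      ∑ x : Perm α, l.EE n φ x * ind r.set (z * x⁻¹) := by
  rw [EE_node]
  congr 1
  refine Finset.sum_congr rfl fun x _ => ?_
  unfold EE
  rw [← sum_ker, Finset.sum_mul_sum]
  refine Finset.sum_congr rfl fun a _ => Finset.sum_congr rfl fun b _ => ?_
  have e : (node l r).pre n (a, b) = l.pre n a :=
    pre_node_left l r ((Nat.le_succ n).trans h) (a, b)
  have e' : (node l r).pre (n + 1) (a, b) = l.pre (n + 1) a := pre_node_left l r h (a, b)
  rw [e, e']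
  ring

theorem EE_node_right (l r : BT α) {n : ℕ} (h : l.size ≤ n) (φ : Perm α → Perm α → ℝ)
    (z : Perm α) :
    (node l r).EE n φ z = (fac r.set l.set z)⁻¹ *
      ∑ x : Perm α, ind l.set x *
        r.EE (n - l.size) (fun u v => φ (u * x) (v * x)) (z * x⁻¹) := by
  rw [EE_node]
  congr 1
  refine Finset.sum_congr rfl fun x _ => ?_
  unfold EE
  rw [← sum_ker, Finset.sum_mul_sum]
  refine Finset.sum_congr rfl fun a _ => Finset.sum_congr rfl fun b _ => ?_
  have e : (node l r).pre n (a, b) = r.pre (n - l.size) b * l.val a :=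
    pre_node_right l r h (a, b)
  have e' : (node l r).pre (n + 1) (a, b) = r.pre (n - l.size + 1) b * l.val a := by
    rw [show n - l.size + 1 = n + 1 - l.size by omega]
    exact pre_node_right l r (h.trans (Nat.le_succ n)) (a, b)
  rw [e, e']
  by_cases hc : l.ker x a = 0
  · rw [hc]; ring
  · have := (ker_ne_zero l _ _ hc).1
    simp only [this]
    ring

end BT

/-- the antisymmetric test function -/
def tst (y t : Perm α) (u v : Perm α) : ℝ :=
  (if u = y ∧ v = y * t then 1 else 0) - (if u = y * t ∧ v = y then 1 else 0)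

theorem tst_abs {y t : Perm α} (ht : t ≠ 1) (u v : Perm α) :
    |tst y t u v| ≤ 1 := by
  unfold tst
  by_cases h1 : u = y ∧ v = y * t
  · have h2 : ¬ (u = y * t ∧ v = y) := by
      rintro ⟨h3, _⟩
      apply ht
      have : y * 1 = y * t := by rw [mul_one, ← h3, h1.1]
      exact (mul_left_cancel this).symm
    rw [if_pos h1, if_neg h2]; norm_num
  · rw [if_neg h1]
    split_ifs <;> norm_num

/-- conjugation of the test function by the value `x` of the left child -/
theorem tst_conj (y x : Perm α) (i j : α) :
    (fun u v => tst y (swap i j) (u * x) (v * x)) = tst (y * x⁻¹) (swap (x i) (x j)) := by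
  funext u v
  unfold tst
  have e1 : (u * x = y) = (u = y * x⁻¹) := by rw [eq_mul_inv_iff_mul_eq]
  have e2 : (v * x = y) = (v = y * x⁻¹) := by rw [eq_mul_inv_iff_mul_eq]
  have e3 : (u * x = y * swap i j) = (u = y * x⁻¹ * swap (x i) (x j)) := by
    rw [← swap_conj, eq_mul_inv_iff_mul_eq]
  have e4 : (v * x = y * swap i j) = (v = y * x⁻¹ * swap (x i) (x j)) := by
    rw [← swap_conj, eq_mul_inv_iff_mul_eq]
  simp only [e1, e2, e3, e4]

theorem tst_conj' (y x : Perm α) (i j : α) :
    (fun u v => tst y (swap i j) (u * (x * swap i j)) (v * (x * swap i j))) =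
      fun u v => - tst (y * x⁻¹) (swap (x i) (x j)) u v := by
  rw [tst_conj]
  have e1 : y * (x * swap i j)⁻¹ = y * x⁻¹ * swap (x i) (x j) := by
    rw [mul_inv_rev, swap_inv, ← mul_assoc, swap_conj]
  have e2 : (x * swap i j) i = x j := by simp
  have e3 : (x * swap i j) j = x i := by simp
  rw [e1, e2, e3]
  funext u v
  unfold tst
  have e4 : y * x⁻¹ * swap (x i) (x j) * swap (x j) (x i) = y * x⁻¹ := by
    rw [swap_comm (x j) (x i), mul_assoc, swap_mul_self, mul_one]
  rw [e4]
  ring

namespace BT

theorem EE_neg (t : BT α) (n : ℕ) (φ : Perm α → Perm α → ℝ) (z : Perm α) :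
    t.EE n (fun u v => - φ u v) z = - t.EE n φ z := by
  unfold EE
  rw [← Finset.sum_neg_distrib]
  exact Finset.sum_congr rfl fun c _ => by ring

/-- **Step 3'.**  For `z i < z j` (`t = swap i j`): `|D z| ≤ D (z t)`. -/
theorem EE_tst : (t : BT α) → t.Ok → (n : ℕ) → n < t.size → (y z : Perm α) → (i j : α) → i < j →
    y i < y j → z i < z j →
    |t.EE n (tst y (swap i j)) z| ≤ t.EE n (tst y (swap i j)) (z * swap i j)
  | leaf B, hok, n, hn, y, z, i, j, hij, hy, hz => by
      have hn0 : n = 0 := by
        have : n < 1 := hn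
        omega
      subst hn0
      have e : ∀ z' : Perm α, (leaf B).EE 0 (tst y (swap i j)) z' =
          ind B z' * tst y (swap i j) 1 z' := by
        intro z'
        show ∑ x : Perm α, (leaf B).ker z' x *
          tst y (swap i j) ((leaf B).pre 0 x) ((leaf B).pre (0 + 1) x) = _
        rw [Finset.sum_eq_single z']
        · show (if z' = z' then ind B z' else 0) *
            tst y (swap i j) (if 0 = 0 then 1 else z') (if 0 + 1 = 0 then 1 else z') = _
          simp
        · intro x _ hx
          show (if x = z' then ind B z' else 0) * _ = _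
          rw [if_neg hx, zero_mul]
        · simp
      have hyt : (1 : Perm α) ≠ y * swap i j := by
        intro h
        have h1 : y = swap i j := by
          have := congrArg (fun w => w * swap i j) h
          simpa [mul_assoc] using this.symm
        rw [h1] at hy
        simp only [swap_apply_left, swap_apply_right] at hy
        exact absurd hy (not_lt.2 hij.le)
      have hz0 : tst y (swap i j) 1 z = 0 := by
        unfold tst
        rw [if_neg, if_neg, sub_zero]
        · rintro ⟨h1, _⟩; exact hyt h1
        · rintro ⟨h1, h2⟩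
          rw [← h1, one_mul] at h2
          rw [h2] at hz
          simp only [swap_apply_left, swap_apply_right] at hz
          exact absurd hz (not_lt.2 hij.le)
      rw [e, e, hz0, mul_zero, abs_zero]
      refine mul_nonneg (ind_nonneg _ _) ?_
      unfold tst
      rw [if_neg (c := 1 = y * swap i j ∧ z * swap i j = y) (fun h => hyt h.1)]
      split_ifs <;> norm_num
  | node l r, hok, n, hn, y, z, i, j, hij, hy, hz => by
      have hdl := isDown_set hok.1
      have hdr := isDown_set hok.2
      set N := fac r.set l.set z with hN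
      set M := fac r.set l.set (z * swap i j) with hM
      have hMN : M ≤ N := fac_dec hdr hdl _ _ ⟨i, j, hij, hz, rfl⟩
      have hM0 : 0 ≤ M := fac_nonneg _ _ _
      have key : ∀ X Y : ℝ, (node l r).EE n (tst y (swap i j)) z = N⁻¹ * X →
          (node l r).EE n (tst y (swap i j)) (z * swap i j) = M⁻¹ * Y → |X| ≤ Y → Y ≤ M →
          |(node l r).EE n (tst y (swap i j)) z| ≤
            (node l r).EE n (tst y (swap i j)) (z * swap i j) := by
        intro X Y hX hY h1 h2
        rcases hM0.eq_or_lt with hm | hm
        · have hX0 : X = 0 := by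
            have : |X| ≤ 0 := by linarith
            exact abs_nonpos_iff.1 this
          rw [hX, hY, hX0, ← hm]; simp
        · have hNpos : 0 < N := lt_of_lt_of_le hm hMN
          rw [hX, hY, abs_mul, abs_of_pos (inv_pos.2 hNpos)]
          exact mul_le_mul (inv_anti₀ hm hMN) h1 (abs_nonneg _) (inv_nonneg.2 hM0)
      have hsz : n < l.size + r.size := hn
      rcases Nat.lt_or_ge n l.size with hn' | hn'
      · have h1 : n + 1 ≤ l.size := hn'
        refine key (∑ x with (x : Perm α) i < x j,
            (l.EE n (tst y (swap i j)) x * ind r.set (z * x⁻¹) +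
              l.EE n (tst y (swap i j)) (x * swap i j) * ind r.set (z * swap i j * x⁻¹)))
          (∑ x with (x : Perm α) i < x j,
            (l.EE n (tst y (swap i j)) x * ind r.set (z * swap i j * x⁻¹) +
              l.EE n (tst y (swap i j)) (x * swap i j) * ind r.set (z * x⁻¹))) ?_ ?_ ?_ ?_
        · rw [EE_node_left l r h1, sum_pair _ hij]
          refine congrArg _ (Finset.sum_congr rfl fun x _ => ?_)
          rw [mul_inv_rev, swap_inv, mul_assoc z (swap i j)]
        · rw [EE_node_left l r h1, sum_pair _ hij]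
          congr 1
          refine Finset.sum_congr rfl fun x _ => ?_
          have : z * swap i j * (x * swap i j)⁻¹ = z * x⁻¹ := by
            rw [mul_inv_rev, swap_inv, ← mul_assoc, mul_assoc z, swap_mul_self, mul_one]
          rw [this]
        · refine (Finset.abs_sum_le_sum_abs _ _).trans (Finset.sum_le_sum fun x hx => ?_)
          have hx' := (Finset.mem_filter.1 hx).2
          have ih := EE_tst l hok.1 n hn' y x i j hij hy hx'
          have hb := ind_pair_right hdr hz hx'
          have hb0 := ind_nonneg r.set (z * swap i j * x⁻¹)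
          obtain ⟨ih1, ih2⟩ := abs_le.1 ih
          rw [abs_le]
          constructor
          · nlinarith [mul_nonneg (by linarith : (0 : ℝ) ≤
              l.EE n (tst y (swap i j)) (x * swap i j) + l.EE n (tst y (swap i j)) x)
              (by linarith : (0 : ℝ) ≤ ind r.set (z * x⁻¹) + ind r.set (z * swap i j * x⁻¹))]
          · nlinarith [mul_nonneg (by linarith : (0 : ℝ) ≤
              l.EE n (tst y (swap i j)) (x * swap i j) - l.EE n (tst y (swap i j)) x)
              (by linarith : (0 : ℝ) ≤ ind r.set (z * x⁻¹) - ind r.set (z * swap i j * x⁻¹))]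
        · rw [hM, fac_pair_zt hij]
          refine Finset.sum_le_sum fun x hx => ?_
          have hne : swap i j ≠ 1 := by
            rw [Ne, swap_eq_one_iff]; exact hij.ne
          have h2 := (abs_le.1 (EE_abs_le l n (φ := tst y (swap i j)) (tst_abs hne) x)).2
          have h3 := (abs_le.1 (EE_abs_le l n (φ := tst y (swap i j)) (tst_abs hne)
            (x * swap i j))).2
          exact add_le_add (mul_le_mul_of_nonneg_right h2 (ind_nonneg _ _))
            (mul_le_mul_of_nonneg_right h3 (ind_nonneg _ _))
      · have hn'' : n - l.size < r.size := by omega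
        refine key (∑ x with (x : Perm α) i < x j,
            (ind l.set x * r.EE (n - l.size) (tst (y * x⁻¹) (swap (x i) (x j))) (z * x⁻¹) -
              ind l.set (x * swap i j) *
              r.EE (n - l.size) (tst (y * x⁻¹) (swap (x i) (x j))) (z * swap i j * x⁻¹)))
          (∑ x with (x : Perm α) i < x j,
            (ind l.set x * r.EE (n - l.size) (tst (y * x⁻¹) (swap (x i) (x j)))
              (z * swap i j * x⁻¹) - ind l.set (x * swap i j) *
              r.EE (n - l.size) (tst (y * x⁻¹) (swap (x i) (x j))) (z * x⁻¹))) ?_ ?_ ?_ ?_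
        · rw [EE_node_right l r hn', sum_pair _ hij]
          congr 1
          refine Finset.sum_congr rfl fun x _ => ?_
          rw [tst_conj, tst_conj', EE_neg, mul_inv_rev, swap_inv, mul_assoc z (swap i j)]
          ring
        · rw [EE_node_right l r hn', sum_pair _ hij]
          congr 1
          refine Finset.sum_congr rfl fun x _ => ?_
          have : z * swap i j * (x * swap i j)⁻¹ = z * x⁻¹ := by
            rw [mul_inv_rev, swap_inv, ← mul_assoc, mul_assoc z, swap_mul_self, mul_one]
          rw [tst_conj, tst_conj', EE_neg, this]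
          ring
        · refine (Finset.abs_sum_le_sum_abs _ _).trans (Finset.sum_le_sum fun x hx => ?_)
          have hx' := (Finset.mem_filter.1 hx).2
          have ih := EE_tst r hok.2 (n - l.size) hn'' (y * x⁻¹) (z * x⁻¹) (x i) (x j) hx'
            (by simpa using hy) (by simpa using hz)
          rw [← swap_conj z] at ih
          have ha := ind_pair hdl hij hx'
          have ha0 := ind_nonneg l.set (x * swap i j)
          obtain ⟨ih1, ih2⟩ := abs_le.1 ih
          rw [abs_le]
          constructor
          · nlinarith [mul_nonneg (by linarith : (0 : ℝ) ≤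
              ind l.set x - ind l.set (x * swap i j)) (by linarith : (0 : ℝ) ≤
              r.EE (n - l.size) (tst (y * x⁻¹) (swap (x i) (x j))) (z * swap i j * x⁻¹) +
              r.EE (n - l.size) (tst (y * x⁻¹) (swap (x i) (x j))) (z * x⁻¹))]
          · nlinarith [mul_nonneg (by linarith : (0 : ℝ) ≤
              ind l.set x + ind l.set (x * swap i j)) (by linarith : (0 : ℝ) ≤
              r.EE (n - l.size) (tst (y * x⁻¹) (swap (x i) (x j))) (z * swap i j * x⁻¹) -
              r.EE (n - l.size) (tst (y * x⁻¹) (swap (x i) (x j))) (z * x⁻¹))]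
        · rw [hM, fac_pair_zt hij]
          refine Finset.sum_le_sum fun x hx => ?_
          have hx' := (Finset.mem_filter.1 hx).2
          have hne : swap (x i) (x j) ≠ 1 := by
            rw [Ne, swap_eq_one_iff]; exact hx'.ne
          have h2 := (abs_le.1 (EE_abs_le r (n - l.size)
            (φ := tst (y * x⁻¹) (swap (x i) (x j))) (tst_abs hne) (z * swap i j * x⁻¹))).2
          have h3 := (abs_le.1 (EE_abs_le r (n - l.size)
            (φ := tst (y * x⁻¹) (swap (x i) (x j))) (tst_abs hne) (z * x⁻¹))).1
          have h4 := mul_le_mul_of_nonneg_left h2 (ind_nonneg l.set x)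
          have h5 := mul_le_mul_of_nonneg_left h3 (ind_nonneg l.set (x * swap i j))
          linarith

/-- the conclusion of step 3': with an increasing nonnegative root weight `h` -/
theorem sum_tst_nonneg (t : BT α) (hok : t.Ok) {h : Perm α → ℝ} (h0 : ∀ z ∈ t.set, 0 ≤ h z)
    (hinc : IncOn t.set h) {n : ℕ} (hn : n < t.size) (y : Perm α) {i j : α} (hij : i < j)
    (hy : y i < y j) : 0 ≤ ∑ z, h z * t.EE n (tst y (swap i j)) z := by
  have hne : swap i j ≠ 1 := by
    rw [Ne, swap_eq_one_iff]; exact hij.ne
  rw [sum_pair _ hij]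
  refine Finset.sum_nonneg fun z hz => ?_
  have hz' := (Finset.mem_filter.1 hz).2
  have h1 := EE_tst t hok n hn y z i j hij hy hz'
  by_cases hm : z * swap i j ∈ t.set
  · have hz0 : z ∈ t.set := isDown_set hok _ _ ⟨i, j, hij, hz', rfl⟩ hm
    have h2 := hinc _ _ hz0 hm ⟨i, j, hij, hz', rfl⟩
    have h3 := h0 z hz0
    have h4 := (abs_le.1 h1).1
    have h5 : 0 ≤ t.EE n (tst y (swap i j)) (z * swap i j) := (abs_nonneg _).trans h1
    nlinarith [mul_nonneg h3 (by linarith : (0 : ℝ) ≤ t.EE n (tst y (swap i j)) z +
      t.EE n (tst y (swap i j)) (z * swap i j)), mul_nonneg (sub_nonneg.2 h2) h5]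
  · have h2 := EE_abs_le t n (φ := tst y (swap i j)) (tst_abs hne) (z * swap i j)
    rw [show ind t.set (z * swap i j) = 0 from if_neg hm] at h2
    have h3 := abs_nonpos_iff.1 h2
    rw [h3] at h1 ⊢
    rw [abs_nonpos_iff.1 h1]
    simp

/-- leaf number `n` is a letter: the two prefixes agree or differ by the letter `s` -/
def Letter (t : BT α) (n : ℕ) (s : Perm α) : Prop :=
  ∀ c, t.ker (t.val c) c ≠ 0 → t.pre (n + 1) c = t.pre n c ∨ t.pre (n + 1) c = s * t.pre n c

theorem sum_law_eq (t : BT α) (h : Perm α → ℝ) (n : ℕ) (φ : Perm α → Perm α → ℝ) :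
    ∑ c, t.law h c * φ (t.pre n c) (t.pre (n + 1) c) = ∑ z, h z * t.EE n φ z := by
  unfold EE law
  simp only [Finset.mul_sum]
  rw [Finset.sum_comm]
  refine Finset.sum_congr rfl fun c _ => ?_
  rw [Finset.sum_eq_single (t.val c)]
  · ring
  · intro z _ hz
    have : t.ker z c = 0 := by
      by_contra hc
      exact hz (ker_ne_zero t z c hc).1.symm
    rw [this]; ring
  · simp

/-- **Theorem (I)** (prefix monotonicity, one letter). -/
theorem pre_mono_letter (t : BT α) (hok : t.Ok) {h : Perm α → ℝ} (h0 : ∀ z ∈ t.set, 0 ≤ h z)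
    (hinc : IncOn t.set h) {n : ℕ} (hn : n < t.size) {p q : α} (hpq : p < q)
    (hs : t.Letter n (swap p q)) {F : Perm α → ℝ} (hF : Inc F) :
    ∑ c, t.law h c * F (t.pre n c) ≤ ∑ c, t.law h c * F (t.pre (n + 1) c) := by
  -- the difference is a nonnegative combination of the quantities of step 3'
  have key : ∑ c, t.law h c * F (t.pre (n + 1) c) - ∑ c, t.law h c * F (t.pre n c) =
      ∑ u with (u : Perm α)⁻¹ p < u⁻¹ q,
        (F (swap p q * u) - F u) *
          ∑ z, h z * t.EE n (tst u (swap (u⁻¹ p) (u⁻¹ q))) z := by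
    have e : ∀ u : Perm α, ∑ z, h z * t.EE n (tst u (swap (u⁻¹ p) (u⁻¹ q))) z =
        ∑ c, t.law h c * tst u (swap (u⁻¹ p) (u⁻¹ q)) (t.pre n c) (t.pre (n + 1) c) :=
      fun u => (sum_law_eq t h n _).symm
    simp only [e, Finset.mul_sum]
    rw [Finset.sum_comm (s := Finset.univ.filter _), ← Finset.sum_sub_distrib]
    refine Finset.sum_congr rfl fun c _ => ?_
    by_cases hc : t.ker (t.val c) c = 0
    · have : t.law h c = 0 := by unfold law; rw [hc, mul_zero]
      rw [this]; simp
    have hmul : ∀ u : Perm α, u * swap (u⁻¹ p) (u⁻¹ q) = swap p q * u := by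
      intro u; rw [mul_swap_eq]; simp
    set v := t.pre n c with hv
    rcases hs c hc with h1 | h1
    · -- no letter
      rw [h1, sub_self]
      symm
      refine Finset.sum_eq_zero fun u _ => ?_
      have : tst u (swap (u⁻¹ p) (u⁻¹ q)) v v = 0 := by
        unfold tst
        rw [hmul]
        have hne : ∀ w : Perm α, w ≠ swap p q * w := by
          intro w hw
          have h2 : swap p q = 1 := by
            have := congrArg (fun g => g * w⁻¹) hw
            simpa [mul_assoc] using this.symm
          exact hpq.ne (swap_eq_one_iff.1 h2)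
        rw [if_neg, if_neg, sub_zero]
        · rintro ⟨h3, h4⟩; exact hne u (h4 ▸ h3)
        · rintro ⟨h3, h4⟩; exact hne u (h3 ▸ h4)
      rw [this]; ring
    · rw [h1]
      -- the unique orbit `{v, s v}`
      by_cases hlt : v⁻¹ p < v⁻¹ q
      · rw [Finset.sum_eq_single v]
        · have : tst v (swap (v⁻¹ p) (v⁻¹ q)) v (swap p q * v) = 1 := by
            unfold tst
            rw [hmul, if_pos ⟨rfl, rfl⟩, if_neg, sub_zero]
            rintro ⟨h3, _⟩
            have h2 : swap p q = 1 := by
              have := congrArg (fun g => g * v⁻¹) h3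
              simpa [mul_assoc] using this.symm
            exact hpq.ne (swap_eq_one_iff.1 h2)
          rw [this]; ring
        · intro u hu huv
          have hu' := (Finset.mem_filter.1 hu).2
          have : tst u (swap (u⁻¹ p) (u⁻¹ q)) v (swap p q * v) = 0 := by
            unfold tst
            rw [hmul, if_neg, if_neg, sub_zero]
            · rintro ⟨h3, _⟩
              rw [h3] at hlt
              simp only [mul_inv_rev, swap_inv, Perm.mul_apply, swap_apply_left,
                swap_apply_right] at hlt
              exact absurd hlt (not_lt.2 hu'.le)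
            · rintro ⟨h3, _⟩; exact huv h3.symm
          rw [this]; ring
        · intro hv'
          exact (hv' (by rw [Finset.mem_filter]; exact ⟨Finset.mem_univ _, hlt⟩)).elim
      · have hlt' : v⁻¹ q < v⁻¹ p := by
          refine lt_of_le_of_ne (not_lt.1 hlt) fun h2 => hpq.ne ?_
          exact (v⁻¹.injective h2).symm
        have hw : (swap p q * v)⁻¹ p < (swap p q * v)⁻¹ q := by
          simp only [mul_inv_rev, swap_inv, Perm.mul_apply, swap_apply_left, swap_apply_right]
          exact hlt'
        have hback : swap p q * (swap p q * v) = v := by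
          rw [← mul_assoc, swap_mul_self, one_mul]
        rw [Finset.sum_eq_single (swap p q * v)]
        · have : tst (swap p q * v)
              (swap ((swap p q * v)⁻¹ p) ((swap p q * v)⁻¹ q)) v (swap p q * v) = -1 := by
            unfold tst
            rw [hmul, hback, if_neg, if_pos ⟨rfl, rfl⟩, zero_sub]
            rintro ⟨h3, _⟩
            have h2 : swap p q = 1 := by
              have := congrArg (fun g => g * v⁻¹) h3
              simpa [mul_assoc] using this.symm
            exact hpq.ne (swap_eq_one_iff.1 h2)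
          rw [this, hback]; ring
        · intro u hu huv
          have hu' := (Finset.mem_filter.1 hu).2
          have : tst u (swap (u⁻¹ p) (u⁻¹ q)) v (swap p q * v) = 0 := by
            unfold tst
            rw [hmul, if_neg, if_neg, sub_zero]
            · rintro ⟨_, h4⟩; exact huv h4.symm
            · rintro ⟨h3, _⟩
              rw [← h3] at hu'
              exact absurd hu' (not_lt.2 hlt'.le)
          rw [this]; ring
        · intro hv'
          exact (hv' (by rw [Finset.mem_filter]; exact ⟨Finset.mem_univ _, hw⟩)).elim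
  have hnn : 0 ≤ ∑ u with (u : Perm α)⁻¹ p < u⁻¹ q,
      (F (swap p q * u) - F u) *
        ∑ z, h z * t.EE n (tst u (swap (u⁻¹ p) (u⁻¹ q))) z := by
    refine Finset.sum_nonneg fun u hu => ?_
    have hu' := (Finset.mem_filter.1 hu).2
    refine mul_nonneg (sub_nonneg.2 (hF _ _ ?_)) (sum_tst_nonneg t hok h0 hinc hn u hu' ?_)
    · exact ⟨u⁻¹ p, u⁻¹ q, hu', by simpa using hpq, by rw [mul_swap_eq]; simp⟩
    · simpa using hpq
  linarith

/-- every leaf is a letter `{1, s}` (or `{1}`) -/
def IsLet : BT α → Prop
  | leaf B => B ⊆ {1} ∨ ∃ p q : α, p < q ∧ B ⊆ {1, swap p q}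
  | node l r => l.IsLet ∧ r.IsLet

theorem IsLet.mono_leaf {B B' : Finset (Perm α)} (h : (leaf B : BT α).IsLet) (hB : B' ⊆ B) :
    (leaf B' : BT α).IsLet := by
  rcases h with h | ⟨p, q, hpq, h⟩
  · exact Or.inl (hB.trans h)
  · exact Or.inr ⟨p, q, hpq, hB.trans h⟩

/-- in a tree of letters every step is a letter -/
theorem isLet_step : (t : BT α) → t.IsLet → (n : ℕ) → n < t.size →
    (∀ c, t.ker (t.val c) c ≠ 0 → t.pre (n + 1) c = t.pre n c) ∨
      ∃ p q : α, p < q ∧ t.Letter n (swap p q)
  | leaf B, h, n, hn => by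
      have hn0 : n = 0 := by
        have : n < 1 := hn
        omega
      subst hn0
      have hx : ∀ x : Perm α, (leaf B).ker ((leaf B).val x) x ≠ 0 → x ∈ B := fun x hx =>
        (ker_ne_zero (leaf B) _ x hx).2
      have e0 : ∀ x : Perm α, (leaf B : BT α).pre 0 x = 1 := fun x => pre_zero (leaf B) x
      have e1 : ∀ x : Perm α, (leaf B : BT α).pre (0 + 1) x = x := fun x =>
        pre_top (leaf B) 1 le_rfl x
      rcases h with h | ⟨p, q, hpq, h⟩
      · refine Or.inl fun x hc => ?_
        have h2 : x = (1 : Perm α) := Finset.mem_singleton.1 (h (hx x hc))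
        exact (e1 x).trans (h2.trans (e0 x).symm)
      · refine Or.inr ⟨p, q, hpq, fun x hc => ?_⟩
        have h1 : x = (1 : Perm α) ∨ x = swap p q := by
          have h2 : (show Perm α from x) ∈ ({1, swap p q} : Finset (Perm α)) := h (hx x hc)
          rw [Finset.mem_insert, Finset.mem_singleton] at h2
          exact h2
        rcases h1 with h1 | h1
        · exact Or.inl ((e1 x).trans (h1.trans (e0 x).symm))
        · refine Or.inr ((e1 x).trans (h1.trans ?_))
          rw [show (leaf B : BT α).pre 0 x = 1 from e0 x, mul_one]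
  | node l r, h, n, hn => by
      have hsz : n < l.size + r.size := hn
      have hk : ∀ c : (node l r).Conf, (node l r).ker ((node l r).val c) c ≠ 0 →
          l.ker (l.val c.1) c.1 ≠ 0 ∧ r.ker (r.val c.2) c.2 ≠ 0 := by
        intro c hc
        constructor
        · intro h0
          apply hc
          show (if r.val c.2 * l.val c.1 = r.val c.2 * l.val c.1 then
            l.ker (l.val c.1) c.1 * r.ker (r.val c.2) c.2 / _ else 0) = 0
          rw [h0]; simp
        · intro h0
          apply hc
          show (if r.val c.2 * l.val c.1 = r.val c.2 * l.val c.1 then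
            l.ker (l.val c.1) c.1 * r.ker (r.val c.2) c.2 / _ else 0) = 0
          rw [h0]; simp
      rcases Nat.lt_or_ge n l.size with hn' | hn'
      · have e0 : ∀ c : (node l r).Conf, (node l r).pre n c = l.pre n c.1 := fun c =>
          pre_node_left l r hn'.le c
        have e1 : ∀ c : (node l r).Conf, (node l r).pre (n + 1) c = l.pre (n + 1) c.1 := fun c =>
          pre_node_left l r hn' c
        rcases isLet_step l h.1 n hn' with ih | ⟨p, q, hpq, ih⟩
        · refine Or.inl fun c hc => ?_
          rw [e0, e1]; exact ih c.1 (hk c hc).1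
        · refine Or.inr ⟨p, q, hpq, fun c hc => ?_⟩
          rw [e0, e1]; exact ih c.1 (hk c hc).1
      · have e0 : ∀ c : (node l r).Conf, (node l r).pre n c =
            r.pre (n - l.size) c.2 * l.val c.1 := fun c => pre_node_right l r hn' c
        have e1 : ∀ c : (node l r).Conf, (node l r).pre (n + 1) c =
            r.pre (n - l.size + 1) c.2 * l.val c.1 := fun c => by
          rw [show n - l.size + 1 = n + 1 - l.size by omega]
          exact pre_node_right l r (hn'.trans (Nat.le_succ n)) c
        rcases isLet_step r h.2 (n - l.size) (by omega) with ih | ⟨p, q, hpq, ih⟩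
        · refine Or.inl fun c hc => ?_
          rw [e0, e1, ih c.2 (hk c hc).2]
        · refine Or.inr ⟨p, q, hpq, fun c hc => ?_⟩
          rw [e0, e1]
          rcases ih c.2 (hk c hc).2 with h1 | h1
          · exact Or.inl (by rw [h1])
          · exact Or.inr (by rw [h1, mul_assoc])

/-- **(C3), prefixes.** -/
theorem pre_mono (t : BT α) (hok : t.Ok) (hl : t.IsLet) {h : Perm α → ℝ}
    (h0 : ∀ z ∈ t.set, 0 ≤ h z) (hinc : IncOn t.set h) {F : Perm α → ℝ} (hF : Inc F)
    {m n : ℕ} (hmn : m ≤ n) :
    ∑ c, t.law h c * F (t.pre m c) ≤ ∑ c, t.law h c * F (t.pre n c) := by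
  induction n, hmn using Nat.le_induction with
  | base => exact le_rfl
  | succ n _ ih =>
    refine ih.trans ?_
    rcases Nat.lt_or_ge n t.size with hn | hn
    · rcases isLet_step t hl n hn with hs | ⟨p, q, hpq, hs⟩
      · refine le_of_eq (Finset.sum_congr rfl fun c _ => ?_)
        by_cases hc : t.ker (t.val c) c = 0
        · unfold law; rw [hc]; simp
        · rw [hs c hc]
      · exact pre_mono_letter t hok h0 hinc hn hpq hs hF
    · refine le_of_eq (Finset.sum_congr rfl fun c _ => ?_)
      rw [pre_top t n hn, pre_top t (n + 1) (hn.trans (Nat.le_succ n))]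

end BT

/-! ### the mirror image -/

theorem fac_inv (B₂ B₁ : Finset (Perm α)) (z : Perm α) :
    fac B₁⁻¹ B₂⁻¹ z⁻¹ = fac B₂ B₁ z := by
  rw [fac_eq_sum, fac]
  refine Fintype.sum_equiv (Equiv.inv (Perm α)) _ _ fun y => ?_
  simp only [Equiv.inv_apply, ind_inv, mul_inv_rev, inv_inv]

namespace BT

/-- mirror image of a tree -/
def mir : BT α → BT α
  | leaf B => leaf B⁻¹
  | node l r => node r.mir l.mir

/-- mirror image of a configuration -/
def mirC : (t : BT α) → t.Conf ≃ t.mir.Conf
  | leaf _ => (Equiv.inv (Perm α) : Perm α ≃ Perm α)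
  | node l r => (Equiv.prodComm l.Conf r.Conf).trans (Equiv.prodCongr (mirC r) (mirC l))

theorem size_mir : (t : BT α) → t.mir.size = t.size
  | leaf _ => rfl
  | node l r => by
      show r.mir.size + l.mir.size = l.size + r.size
      rw [size_mir l, size_mir r, add_comm]

theorem set_mir : (t : BT α) → t.mir.set = t.set⁻¹
  | leaf _ => rfl
  | node l r => by
      show l.mir.set * r.mir.set = (r.set * l.set)⁻¹
      rw [set_mir l, set_mir r, mul_inv_rev]

theorem val_mir : (t : BT α) → (c : t.Conf) → t.mir.val (t.mirC c) = (t.val c)⁻¹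
  | leaf _, _ => rfl
  | node l r, c => by
      show l.mir.val (l.mirC c.1) * r.mir.val (r.mirC c.2) = (r.val c.2 * l.val c.1)⁻¹
      rw [val_mir l, val_mir r, mul_inv_rev]

theorem ker_mir_leaf (B : Finset (Perm α)) (z x : Perm α) :
    (leaf B⁻¹ : BT α).ker z⁻¹ (x⁻¹ : Perm α) = (leaf B : BT α).ker z x := by
  show (if x⁻¹ = z⁻¹ then ind B⁻¹ z⁻¹ else 0) = if x = z then ind B z else 0
  rw [ind_inv, inv_inv]
  by_cases h : x = z
  · rw [if_pos h, if_pos (by rw [h])]
  · rw [if_neg h, if_neg (fun hc => h (inv_injective hc))]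

theorem ker_mir : (t : BT α) → (z : Perm α) → (c : t.Conf) →
    t.mir.ker z⁻¹ (t.mirC c) = t.ker z c
  | leaf B, z, x => ker_mir_leaf B z x
  | node l r, z, c => by
      show (if l.mir.val (l.mirC c.1) * r.mir.val (r.mirC c.2) = z⁻¹ then
        r.mir.ker (r.mir.val (r.mirC c.2)) (r.mirC c.2) *
          l.mir.ker (l.mir.val (l.mirC c.1)) (l.mirC c.1) / fac l.mir.set r.mir.set z⁻¹ else 0) =
        if r.val c.2 * l.val c.1 = z then
          l.ker (l.val c.1) c.1 * r.ker (r.val c.2) c.2 / fac r.set l.set z else 0
      rw [val_mir, val_mir, ker_mir, ker_mir, set_mir, set_mir, fac_inv, ← mul_inv_rev]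
      by_cases h : r.val c.2 * l.val c.1 = z
      · rw [if_pos h, if_pos (by rw [h])]; ring
      · rw [if_neg h, if_neg (fun hc => h (inv_injective hc))]

theorem pre_mir_leaf (B : Finset (Perm α)) (n : ℕ) (hn : n ≤ 1) (x : Perm α) :
    (leaf B⁻¹ : BT α).pre (1 - n) (x⁻¹ : Perm α) = (leaf B : BT α).pre n x * x⁻¹ := by
  rcases Nat.eq_zero_or_pos n with rfl | h
  · show (if (1 - 0 : ℕ) = 0 then 1 else x⁻¹) = (if 0 = 0 then 1 else x) * x⁻¹
    simp
  · have h1 : n = 1 := by omega
    subst h1
    show (if (1 - 1 : ℕ) = 0 then 1 else x⁻¹) = (if 1 = 0 then 1 else x) * x⁻¹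
    simp

theorem pre_mir : (t : BT α) → (n : ℕ) → n ≤ t.size → (c : t.Conf) →
    t.mir.pre (t.size - n) (t.mirC c) = t.pre n c * (t.val c)⁻¹
  | leaf B, n, hn, x => pre_mir_leaf B n hn x
  | node l r, n, hn, c => by
      have hsz : n ≤ l.size + r.size := hn
      rcases Nat.le_total n l.size with h | h
      · rw [pre_node_left l r h]
        have e := pre_node_right r.mir l.mir (n := (node l r).size - n)
          (by rw [size_mir]; show r.size ≤ l.size + r.size - n; omega) ((node l r).mirC c)
        have e2 : (node l r).size - n - r.mir.size = l.size - n := by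
          rw [size_mir]; show l.size + r.size - n - r.size = l.size - n; omega
        rw [e2] at e
        refine e.trans ?_
        show l.mir.pre (l.size - n) (l.mirC c.1) * r.mir.val (r.mirC c.2) = _
        rw [pre_mir l n h, val_mir]
        show _ = l.pre n c.1 * (r.val c.2 * l.val c.1)⁻¹
        rw [mul_inv_rev, mul_assoc]
      · rw [pre_node_right l r h]
        have e := pre_node_left r.mir l.mir (n := (node l r).size - n)
          (by rw [size_mir]; show l.size + r.size - n ≤ r.size; omega) ((node l r).mirC c)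
        have e2 : (node l r).size - n = r.size - (n - l.size) := by
          show l.size + r.size - n = r.size - (n - l.size); omega
        refine e.trans ?_
        show r.mir.pre ((node l r).size - n) (r.mirC c.2) = _
        rw [e2, pre_mir r (n - l.size) (by omega)]
        show _ = r.pre (n - l.size) c.2 * l.val c.1 * (r.val c.2 * l.val c.1)⁻¹
        rw [mul_inv_rev, mul_assoc, mul_inv_cancel_left]

theorem law_mir (t : BT α) (h : Perm α → ℝ) (c : t.Conf) :
    t.mir.law (fun z => h z⁻¹) (t.mirC c) = t.law h c := by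
  unfold law
  rw [val_mir, ker_mir]
  simp only [inv_inv]

theorem ok_mir : (t : BT α) → t.Ok → t.mir.Ok
  | leaf _, h => ⟨isDown_inv h.1, h.2.inv⟩
  | node l r, h => ⟨ok_mir r h.2, ok_mir l h.1⟩

theorem isLet_mir : (t : BT α) → t.IsLet → t.mir.IsLet
  | leaf B, h => by
      rcases h with h | ⟨p, q, hpq, h⟩
      · refine Or.inl fun x hx => ?_
        have := h (Finset.mem_inv'.1 hx)
        rw [Finset.mem_singleton] at this ⊢
        exact inv_eq_one.1 this
      · refine Or.inr ⟨p, q, hpq, fun x hx => ?_⟩
        have := h (Finset.mem_inv'.1 hx)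
        rw [Finset.mem_insert, Finset.mem_singleton] at this ⊢
        rcases this with h1 | h1
        · exact Or.inl (inv_eq_one.1 h1)
        · exact Or.inr (by rw [← inv_inv x, h1, swap_inv])
  | node l r, h => ⟨isLet_mir r h.2, isLet_mir l h.1⟩

theorem incOn_mir (t : BT α) {h : Perm α → ℝ} (hinc : IncOn t.set h) :
    IncOn t.mir.set (fun z => h z⁻¹) := by
  intro x x' hx hx' hu
  rw [set_mir, Finset.mem_inv'] at hx hx'
  exact hinc _ _ hx hx' (up_inv hu)

/-- expectation of a function of a suffix = expectation of a function of a prefix of the mirror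
image -/
theorem sum_suf_mir (t : BT α) (h : Perm α → ℝ) (F : Perm α → ℝ) {n : ℕ} (hn : n ≤ t.size) :
    ∑ c, t.law h c * F (t.val c * (t.pre n c)⁻¹) =
      ∑ c, t.mir.law (fun z => h z⁻¹) c * F (t.mir.pre (t.size - n) c)⁻¹ := by
  refine Fintype.sum_equiv t.mirC _ _ fun c => ?_
  rw [law_mir, pre_mir t n hn, mul_inv_rev, inv_inv]

/-- **(C3), suffixes.** -/
theorem suf_mono (t : BT α) (hok : t.Ok) (hl : t.IsLet) {h : Perm α → ℝ}
    (h0 : ∀ z ∈ t.set, 0 ≤ h z) (hinc : IncOn t.set h) {F : Perm α → ℝ} (hF : Inc F)
    {m n : ℕ} (hmn : m ≤ n) :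
    ∑ c, t.law h c * F (t.val c * (t.pre n c)⁻¹) ≤
      ∑ c, t.law h c * F (t.val c * (t.pre m c)⁻¹) := by
  have main : ∀ m n : ℕ, m ≤ n → n ≤ t.size →
      ∑ c, t.law h c * F (t.val c * (t.pre n c)⁻¹) ≤
        ∑ c, t.law h c * F (t.val c * (t.pre m c)⁻¹) := by
    intro m n hmn hn
    rw [sum_suf_mir t h F hn, sum_suf_mir t h F (hmn.trans hn)]
    exact pre_mono t.mir (ok_mir t hok) (isLet_mir t hl) (h := fun z => h z⁻¹)
      (fun z hz => h0 _ (by rw [set_mir, Finset.mem_inv'] at hz; exact hz))
      (incOn_mir t hinc) (F := fun z => F z⁻¹) hF.inv (by omega)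
  rcases Nat.le_total n t.size with hn | hn
  · exact main m n hmn hn
  · have e : ∀ c, t.pre n c = t.pre t.size c := fun c => by
      rw [pre_top t n hn, pre_top t t.size le_rfl]
    rcases Nat.le_total m t.size with hm | hm
    · simp only [e]
      exact main m t.size hm le_rfl
    · have e' : ∀ c, t.pre m c = t.pre t.size c := fun c => by
        rw [pre_top t m hm, pre_top t t.size le_rfl]
      simp only [e, e']
      exact le_rfl

end BT

end VPBruhat
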