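import Vale.Agent.P235.R2.H582.KprSpec

/-!
P235-M (helper347): row R5 of `R2/H582/KprSpec.lean` from R1 and R4 (independent copy).
-/

set_option autoImplicit false
set_option linter.all false

namespace Vale.Agent.P235.H347K

open Vale.Agent.P235 Vale.Agent.P235.Kpr SimpleGraph

theorem chop_le {V : Type} (H : SimpleGraph V) (f : V → ℝ) (Δ θ : ℝ) : chop H f Δ θ ≤ H :=
  fun _ _ h => h.1

theorem first_far {V : Type} {H : SimpleGraph V} {g : V → ℝ} {s D : ℝ}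
    (hstep : ∀ u v, H.Adj u v → g v ≤ g u + D) {x y : V} (w : H.Walk x y) (hx : g x ≤ s)
    (hy : s < g y) : ∃ z, H.Reachable x z ∧ s < g z ∧ g z ≤ s + D := by
  induction w with
  | nil => exact absurd hy (not_lt.2 hx)
  | @cons a b c h p ih =>
    by_cases hb : g b ≤ s
    · obtain ⟨z, hz1, hz2, hz3⟩ := ih hb hy
      exact ⟨z, h.reachable.trans hz1, hz2, hz3⟩
    · exact ⟨b, h.reachable, not_le.1 hb, (hstep _ _ h).trans (by linarith)⟩

theorem rowDiam (h1 : RowMinor) (h4 : RowStage) : RowDiam := by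
  classical
  intro V _ G H ℓ Δ θ₁ θ₂ θ₃ f₁ f₂ f₃ r₁ r₂ r₃ hc hpl hℓ hHG hΔ hHΔ p₁ p₂ p₃ x y hxy
  have hd := pathDist_isMet hc hℓ
  by_contra hcon
  rw [not_le] at hcon
  set H₁ := chop H f₁ Δ θ₁ with hH₁
  set H₂ := chop H₁ f₂ Δ θ₂ with hH₂
  set H₃ := chop H₂ f₃ Δ θ₃ with hH₃
  have l₁ : H₁ ≤ H := chop_le _ _ _ _
  have l₂ : H₂ ≤ H₁ := chop_le _ _ _ _
  have l₃ : H₃ ≤ H₂ := chop_le _ _ _ _
  have g₁ : H₁ ≤ G := l₁.trans hHG
  have g₂ : H₂ ≤ G := l₂.trans g₁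
  have g₃ : H₃ ≤ G := l₃.trans g₂
  have e₁ : ∀ u v, H₁.Adj u v → ℓ s(u, v) ≤ Δ := fun u v h => hHΔ u v (l₁ h)
  have e₂ : ∀ u v, H₂.Adj u v → ℓ s(u, v) ≤ Δ := fun u v h => e₁ u v (l₂ h)
  have e₃ : ∀ u v, H₃.Adj u v → ℓ s(u, v) ≤ Δ := fun u v h => e₂ u v (l₃ h)
  -- the third point
  obtain ⟨w⟩ := hxy
  have hstep : ∀ u v, H₃.Adj u v → pathDist G ℓ x v ≤ pathDist G ℓ x u + Δ := by
    intro u v h
    have a1 := hd.tri x u v
    have a2 := pathDist_adj hℓ (g₃ h)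
    have a3 := e₃ u v h
    linarith
  have hx0 : pathDist G ℓ x x ≤ 25 * Δ := by rw [hd.self]; positivity
  obtain ⟨z, hz1, hz2, hz3⟩ := first_far hstep w hx0 (by linarith)
  have hyz : 26 * Δ < pathDist G ℓ y z := by
    have a1 := hd.tri x z y
    have a2 := hd.symm y z
    linarith
  let xx : Fin 3 → V := ![x, y, z]
  have hsep : ∀ k l, k ≠ l → 24 * Δ < pathDist G ℓ (xx k) (xx l) := by
    have s1 := hd.symm x y
    have s2 := hd.symm x z
    have s3 := hd.symm y z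
    intro k l hkl
    fin_cases k <;> fin_cases l <;> simp [xx] at hkl ⊢ <;> linarith
  have hreach : ∀ k, H₃.Reachable (xx 0) (xx k) := by
    intro k
    fin_cases k
    · exact Reachable.refl _
    · exact w.reachable
    · exact hz1
  have st0 : Stage G ℓ Δ xx H₃ 0 (fun _ => ∅) (fun k => {xx k}) xx 0 := by
    refine ⟨?_, ?_, ?_, ?_, ?_, ?_, ?_, ?_, ?_, ?_, ?_⟩
    · intro j hj; omega
    · intro i hi; omega
    · intro k
      have : Unique ({xx k} : Set V) := Set.uniqueSingleton _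
      exact SimpleGraph.Connected.mk (fun a b => by rw [Subsingleton.elim a b])
    · intro j hj; omega
    · intro j hj; omega
    · intro k; exact rfl
    · intro k; exact rfl
    · intro k v hv
      rw [Set.mem_singleton_iff.1 hv, hd.self]
    · intro j hj; omega
    · intro k v hv
      rw [Set.mem_singleton_iff.1 hv]; exact hreach k
    · intro j hj; omega
  obtain ⟨A1, X1, y1, st1⟩ := h4 V G H₂ ℓ Δ θ₃ 0 xx 0 _ _ _ f₃ r₃ hc hℓ g₂ hΔ le_rfl e₂ p₃
    (fun k l h => by have := hsep k l h; linarith) st0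
  obtain ⟨A2, X2, y2, st2⟩ := h4 V G H₁ ℓ Δ θ₂ (0 + 4 * Δ) xx _ _ _ _ f₂ r₂ hc hℓ g₁ hΔ
    (by positivity) e₁ p₂ (fun k l h => by have := hsep k l h; linarith) st1
  obtain ⟨A3, X3, y3, st3⟩ := h4 V G H ℓ Δ θ₁ (0 + 4 * Δ + 4 * Δ) xx _ _ _ _ f₁ r₁ hc hℓ hHG hΔ
    (by positivity) hHΔ p₁ (fun k l h => by have := hsep k l h; linarith) st2
  refine h1 V G hc hpl (fun i => A3 i) X3 (fun i => st3.aconn _ (by omega)) st3.xconn
    (fun i j hij => st3.adisj _ (by omega) _ (by omega) (fun h => hij (Fin.ext h))) ?_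
    (fun i j => st3.ax _ (by omega) j) (fun i j => st3.adj _ (by omega) j)
  intro i j hij
  rw [Set.disjoint_left]
  intro v hvi hvj
  have b1 := st3.ball i v hvi
  have b2 := st3.ball j v hvj
  have b3 := hd.tri (xx i) v (xx j)
  have b4 := hd.symm v (xx j)
  have b5 := hsep i j hij
  linarith

end Vale.Agent.P235.H347K
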