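import Vale.Agent.P235.R2.H341.KrSpec
import Vale.Agent.P235.R2.H347.Kpr7
import Mathlib.Analysis.SpecialFunctions.Log.Base
import Mathlib.Analysis.Complex.ExponentialBounds

/-!
P235-M (helper347): row K4 of `R2/H341/KrSpec.lean`, random retractions onto an arbitrary set
from random partitions at all scales, for graphs without a `K_r` minor.
-/

set_option autoImplicit false
set_option linter.all false

namespace Vale.Agent.P235.H347K

open Vale.Agent.P235 Vale.Agent.P235.Kpr Vale.Agent.P235.Kr SimpleGraph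

theorem q_aux {q : ℝ} (h : 2 ≤ q) : 8 ≤ q ^ 3 ∧ 4 * q ≤ q ^ 3 := by
  constructor
  · calc (8 : ℝ) = 2 ^ 3 := by norm_num
      _ ≤ q ^ 3 := pow_le_pow_left₀ (by norm_num) h 3
  · have h1 : 0 ≤ q * (q - 2) * (q + 2) :=
      mul_nonneg (mul_nonneg (by linarith) (by linarith)) (by linarith)
    linarith [h1, show q * (q - 2) * (q + 2) = q ^ 3 - 4 * q by ring]

theorem fin_aux {q R l M : ℝ} (h : 2 ≤ q) (hR : 0 < R) (hl : 0 < l) (hM : 0 < M)
    (h6 : 6 * l < R) (hRM : R ≤ M * l) :
    (3 * R + l) * ((18 / 5 + 40 * q ^ 3) * (l / R) + (1 + q) / M) ≤ 200 * q ^ 3 * l := by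
  obtain ⟨q3, q1⟩ := q_aux h
  have f1 : (3 * R + l) ≤ 19 / 6 * R := by linarith
  have f2 : (19 / 6 * R) * ((18 / 5 + 40 * q ^ 3) * (l / R)) =
      19 / 6 * (18 / 5 + 40 * q ^ 3) * l := by
    field_simp
  have f3 : R * ((1 + q) / M) ≤ (1 + q) * l := by
    rw [mul_div_assoc', div_le_iff₀ hM]
    have := mul_le_mul_of_nonneg_left hRM (by linarith : 0 ≤ 1 + q)
    linarith
  have f4 : 0 ≤ (18 / 5 + 40 * q ^ 3) * (l / R) + (1 + q) / M := by positivity
  calc (3 * R + l) * ((18 / 5 + 40 * q ^ 3) * (l / R) + (1 + q) / M)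
      ≤ 19 / 6 * R * ((18 / 5 + 40 * q ^ 3) * (l / R) + (1 + q) / M) :=
        mul_le_mul_of_nonneg_right f1 f4
    _ = 19 / 6 * (18 / 5 + 40 * q ^ 3) * l + 19 / 6 * (R * ((1 + q) / M)) := by
        rw [mul_add, f2]; ring
    _ ≤ 19 / 6 * (18 / 5 + 40 * q ^ 3) * l + 19 / 6 * ((1 + q) * l) := by linarith
    _ = (19 / 6 * (18 / 5 + 40 * q ^ 3) + 19 / 6 * (1 + q)) * l := by ring
    _ ≤ 200 * q ^ 3 * l := by
        refine mul_le_mul_of_nonneg_right ?_ hl.le
        linarith

theorem rowK4 (h3 : RowCount) (h6 : RowK3) : RowK4 := by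
  classical
  intro V _ G ℓ q0 hc hpl hℓ X ν hν
  set q : ℝ := (q0 : ℝ) + 2 with hq
  have hq2 : 2 ≤ q := by
    have : (0 : ℝ) ≤ q0 := Nat.cast_nonneg _
    linarith
  have hq0 : 0 < q := by linarith
  have hd := pathDist_isMet hc hℓ
  set d := pathDist G ℓ with hd_def
  set r : V → ℝ := fun v => d v (ν v) with hr
  have hne : Nonempty V := hc.nonempty
  have hfin : Fintype V := Fintype.ofFinite V
  have hr0 : ∀ v, 0 ≤ r v := fun v => hd.nonneg _ _
  have hlip : ∀ u v, r u ≤ d u v + r v := fun u v => hν.lip hc hℓ u v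
  obtain ⟨M, hM1, hM⟩ : ∃ M : ℕ, 0 < M ∧ ∀ u v, G.Adj u v → r u + r v ≤ M * ℓ s(u, v) := by
    have : ∀ᶠ M : ℕ in Filter.atTop, 0 < M ∧ ∀ u v, G.Adj u v → r u + r v ≤ M * ℓ s(u, v) := by
      refine (Filter.eventually_gt_atTop 0).and ?_
      rw [Filter.eventually_all]
      intro u
      rw [Filter.eventually_all]
      intro v
      by_cases h : G.Adj u v
      · have hp : 0 < ℓ s(u, v) := hℓ _ h
        filter_upwards [Filter.eventually_ge_atTop ⌈(r u + r v) / ℓ s(u, v)⌉₊] with M hM _
        have h1 := Nat.ceil_le.1 hM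
        rwa [div_le_iff₀ hp] at h1
      · exact Filter.Eventually.of_forall fun M h' => absurd h' h
    exact this.exists
  have hMr : (0 : ℝ) < M := by exact_mod_cast hM1
  have hk : ∀ (k : Fin M) (j : ℤ), ∃ c : (Fin (q0 + 2) → Fin M) → V → V,
      (∀ ω u v, c ω u = c ω v → pathDist G ℓ u v ≤
        8 * q ^ 2 * ((2 : ℝ) ^ ((j : ℝ) - (k : ℕ) / M) / (8 * q ^ 2))) ∧
      ∀ u v, G.Adj u v → ({ω | c ω u ≠ c ω v}.ncard : ℝ) ≤
        q * (M : ℝ) ^ (q0 + 2) *
          (ℓ s(u, v) / ((2 : ℝ) ^ ((j : ℝ) - (k : ℕ) / M) / (8 * q ^ 2)) + 1 / M) :=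
    fun k j => h6 V G ℓ q0 hc hpl hℓ _ M (by positivity) hM1
  choose c hc1 hc2 using hk
  set J : Fin M → V → ℤ := fun k v => ⌊(Real.logb 2 (r v) + (k : ℕ) * 1 / M) / 1⌋ with hJ
  have hJ1 : ∀ (k : Fin M) (v : V), 0 < r v →
      (2 : ℝ) ^ ((J k v : ℝ) - (k : ℕ) / M) ≤ r v ∧
      r v ≤ 2 * (2 : ℝ) ^ ((J k v : ℝ) - (k : ℕ) / M) := by
    intro k v hv
    have e1 : (J k v : ℝ) ≤ (Real.logb 2 (r v) + (k : ℕ) * 1 / M) / 1 := Int.floor_le _
    have e2 : (Real.logb 2 (r v) + (k : ℕ) * 1 / M) / 1 < (J k v : ℝ) + 1 := Int.lt_floor_add_one _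
    rw [mul_one, div_one] at e1 e2
    have e3 : r v = (2 : ℝ) ^ Real.logb 2 (r v) :=
      (Real.rpow_logb (by norm_num) (by norm_num) hv).symm
    constructor
    · calc (2 : ℝ) ^ ((J k v : ℝ) - (k : ℕ) / M) ≤ (2 : ℝ) ^ Real.logb 2 (r v) :=
          Real.rpow_le_rpow_of_exponent_le (by norm_num) (by linarith)
        _ = r v := e3.symm
    · calc r v = (2 : ℝ) ^ Real.logb 2 (r v) := e3
        _ ≤ (2 : ℝ) ^ (1 + ((J k v : ℝ) - (k : ℕ) / M)) :=
          Real.rpow_le_rpow_of_exponent_le (by norm_num) (by linarith)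
        _ = _ := by rw [Real.rpow_add (by norm_num), Real.rpow_one]
  set key : Fin M × (Fin (q0 + 2) → Fin M) → V → ℤ × V :=
    fun i v => (J i.1 v, c i.1 (J i.1 v) i.2 v) with hkey
  set rep : Fin M × (Fin (q0 + 2) → Fin M) → ℤ × V → V :=
    fun i κ => Classical.epsilon (fun u => 0 < r u ∧ key i u = κ) with hrep
  have hrep1 : ∀ i v, 0 < r v → 0 < r (rep i (key i v)) ∧ key i (rep i (key i v)) = key i v := by
    intro i v hv
    exact Classical.epsilon_spec (p := fun u => 0 < r u ∧ key i u = key i v) ⟨v, hv, rfl⟩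
  set π : Fin M × (Fin (q0 + 2) → Fin M) → V → V :=
    fun i v => if r v = 0 then ν v else ν (rep i (key i v)) with hπ
  have hπ3 : ∀ i v, d v (π i v) ≤ 3 * r v := by
    intro i v
    by_cases h0 : r v = 0
    · simp only [hπ, h0, if_true]
      have : d v (ν v) = 0 := h0
      rw [this]; simp
    · have hv : 0 < r v := lt_of_le_of_ne (hr0 v) (Ne.symm h0)
      simp only [hπ, h0, if_false]
      obtain ⟨h1, h2⟩ := hrep1 i v hv
      set u := rep i (key i v) with hu
      have e1 : J i.1 u = J i.1 v := congrArg Prod.fst h2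
      have e2 : c i.1 (J i.1 u) i.2 u = c i.1 (J i.1 v) i.2 v := congrArg Prod.snd h2
      rw [e1] at e2
      have e3 : d u v ≤ 8 * q ^ 2 * ((2 : ℝ) ^ ((J i.1 v : ℝ) - (i.1 : ℕ) / M) / (8 * q ^ 2)) :=
        hc1 i.1 (J i.1 v) i.2 u v e2
      have e4 := (hJ1 i.1 v hv).1
      have e3' : 8 * q ^ 2 * ((2 : ℝ) ^ ((J i.1 v : ℝ) - (i.1 : ℕ) / M) / (8 * q ^ 2)) =
          (2 : ℝ) ^ ((J i.1 v : ℝ) - (i.1 : ℕ) / M) := by
        field_simp
      have e5 : d u v ≤ r v := by linarith
      have e6 := hlip u v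
      have e7 : d v (ν u) ≤ d v u + d u (ν u) := hd.tri _ _ _
      have e8 : d v u = d u v := hd.symm _ _
      have e9 : d u (ν u) = r u := rfl
      linarith
  have hcard : (Fintype.card (Fin M × (Fin (q0 + 2) → Fin M)) : ℝ) = (M : ℝ) * (M : ℝ) ^ (q0 + 2) := by
    simp
  refine ⟨Fin M × (Fin (q0 + 2) → Fin M), inferInstance, fun _ => 1 / ((M : ℝ) * (M : ℝ) ^ (q0 + 2)), π,
    fun _ => by positivity, ?_, ?_, ?_, fun i v => ?_⟩
  · rw [Finset.sum_const, Finset.card_univ, nsmul_eq_mul, hcard]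
    field_simp
  · intro i v
    by_cases h0 : r v = 0
    · simp only [hπ, h0, if_true]; exact hν.mem _
    · simp only [hπ, h0, if_false]; exact hν.mem _
  · intro u v huv
    set l := ℓ s(u, v) with hl
    have hl0 : 0 < l := hℓ _ huv
    have hdl : d u v ≤ l := pathDist_adj hℓ huv
    have hMl := hM u v huv
    -- pointwise bound
    have hpt : ∀ i, d (π i u) (π i v) ≤ 3 * r u + l + 3 * r v := by
      intro i
      have a1 := hd.tri (π i u) u (π i v)
      have a2 := hd.tri u v (π i v)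
      have a3 := hd.symm (π i u) u
      have a4 := hπ3 i u
      have a5 := hπ3 i v
      linarith
    rw [← Finset.mul_sum]
    have hW : (0 : ℝ) < (M : ℝ) * (M : ℝ) ^ (q0 + 2) := by positivity
    rw [one_div, inv_mul_le_iff₀ hW]
    have hu1 := hlip u v
    have hv1 := hlip v u
    have hduv : d v u = d u v := hd.symm _ _
    by_cases hbig : r u + r v ≤ 6 * l
    · calc ∑ i, d (π i u) (π i v) ≤ ∑ _i : Fin M × (Fin (q0 + 2) → Fin M), (19 * l) :=
            Finset.sum_le_sum fun i _ => by have := hpt i; linarith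
        _ = ((M : ℝ) * (M : ℝ) ^ (q0 + 2)) * (19 * l) := by
            rw [Finset.sum_const, Finset.card_univ, nsmul_eq_mul, hcard]
        _ ≤ _ := by
            refine mul_le_mul_of_nonneg_left ?_ hW.le
            refine mul_le_mul_of_nonneg_right ?_ hl0.le
            have q3 := (q_aux hq2).1
            linarith
    · rw [not_le] at hbig
      -- both radii are large
      set R := r u + r v with hR
      have hR0 : 0 < R := by linarith
      have hru : 5 / 12 * R ≤ r u := by linarith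
      have hrv : 5 / 12 * R ≤ r v := by linarith
      have hru0 : 0 < r u := by linarith
      have hrv0 : 0 < r v := by linarith
      -- levels
      have hlev : ({k : Fin M | J k u ≠ J k v}.ncard : ℝ) ≤ M * (18 / 5 * (l / R)) / 1 + 1 := by
        refine h3 (Real.logb 2 (r u)) (Real.logb 2 (r v)) (18 / 5 * (l / R)) 1 M ?_ one_pos hM1
        have key1 : ∀ a b : ℝ, 5 / 12 * R ≤ b → b ≤ a → a ≤ b + l →
            |Real.logb 2 a - Real.logb 2 b| ≤ 18 / 5 * (l / R) := by
          intro a b hb hab hal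
          refine (logb_close (by linarith) hab hal hl0.le).trans ?_
          have : l / b ≤ l / (5 / 12 * R) := by gcongr
          have e : l / (5 / 12 * R) = 12 / 5 * (l / R) := by field_simp
          rw [e] at this
          linarith
        rcases le_total (r v) (r u) with h | h
        · exact key1 _ _ hrv h (by linarith)
        · rw [abs_sub_comm]
          exact key1 _ _ hru h (by linarith)
      -- one level
      have hone : ∀ k : Fin M, J k u = J k v →
          ({ω | c k (J k u) ω u ≠ c k (J k v) ω v}.ncard : ℝ) ≤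
            q * (M : ℝ) ^ (q0 + 2) * (40 * q ^ 2 * (l / R) + 1 / M) := by
        intro k hJk
        rw [← hJk]
        refine (hc2 k (J k u) u v huv).trans ?_
        have e1 := (hJ1 k u hru0).2
        have e2 : 5 / 24 * R ≤ (2 : ℝ) ^ ((J k u : ℝ) - (k : ℕ) / M) := by linarith
        have e3 : l / ((2 : ℝ) ^ ((J k u : ℝ) - (k : ℕ) / M) / (8 * q ^ 2)) ≤
            40 * q ^ 2 * (l / R) := by
          have : l / ((2 : ℝ) ^ ((J k u : ℝ) - (k : ℕ) / M) / (8 * q ^ 2)) ≤
              l / (5 / 24 * R / (8 * q ^ 2)) := by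
            gcongr
          refine this.trans ?_
          have e : l / (5 / 24 * R / (8 * q ^ 2)) = 192 / 5 * (q ^ 2 * (l / R)) := by
            field_simp
            norm_num
          rw [e]
          have : 0 ≤ q ^ 2 * (l / R) := by positivity
          have e' : 40 * q ^ 2 * (l / R) = 40 * (q ^ 2 * (l / R)) := by ring
          rw [e']
          linarith
        gcongr
      -- indicator sums
      have hterm : ∀ i, d (π i u) (π i v) ≤
          (3 * R + l) * (if key i u = key i v then (0 : ℝ) else 1) := by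
        intro i
        split_ifs with h
        · have e : π i u = π i v := by
            simp only [hπ, hru0.ne', hrv0.ne', if_false, h]
          rw [e, hd.self]; simp
        · have := hpt i
          linarith
      have hsumk : ∀ k : Fin M, ∑ ω : (Fin (q0 + 2) → Fin M),
          (if key (k, ω) u = key (k, ω) v then (0 : ℝ) else 1) ≤
          (M : ℝ) ^ (q0 + 2) * (if J k u ≠ J k v then (1 : ℝ) else 0) +
            q * (M : ℝ) ^ (q0 + 2) * (40 * q ^ 2 * (l / R) + 1 / M) := by
        intro k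
        have hnn : 0 ≤ q * (M : ℝ) ^ (q0 + 2) * (40 * q ^ 2 * (l / R) + 1 / M) := by positivity
        by_cases hJk : J k u = J k v
        · rw [if_neg (not_not.2 hJk), mul_zero, zero_add]
          refine le_trans (le_of_eq ?_) (hone k hJk)
          rw [Set.ncard_eq_toFinset_card']
          rw [Finset.sum_ite, Finset.sum_const_zero, zero_add, Finset.sum_const, nsmul_eq_mul,
            mul_one]
          congr 2
          ext ω
          simp only [hkey, Finset.mem_filter, Finset.mem_univ, true_and, Set.mem_toFinset,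
            Set.mem_setOf_eq, Prod.mk.injEq, hJk, true_and, ne_eq]
        · rw [if_pos hJk, mul_one]
          have : ∑ ω : (Fin (q0 + 2) → Fin M),
              (if key (k, ω) u = key (k, ω) v then (0 : ℝ) else 1) ≤
              ∑ _ω : (Fin (q0 + 2) → Fin M), (1 : ℝ) :=
            Finset.sum_le_sum fun ω _ => by split_ifs <;> norm_num
          have e : ∑ _ω : (Fin (q0 + 2) → Fin M), (1 : ℝ) = (M : ℝ) ^ (q0 + 2) := by
            rw [Finset.sum_const, Finset.card_univ]
            simp
          linarith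
      have hlevsum : ∑ k : Fin M, (if J k u ≠ J k v then (1 : ℝ) else 0) ≤
          M * (18 / 5 * (l / R)) + 1 := by
        have e : ∑ k : Fin M, (if J k u ≠ J k v then (1 : ℝ) else 0) =
            ({k : Fin M | J k u ≠ J k v}.ncard : ℝ) := by
          rw [Set.ncard_eq_toFinset_card', Finset.sum_ite, Finset.sum_const_zero, add_zero,
            Finset.sum_const, nsmul_eq_mul, mul_one]
          congr 2
          ext k
          simp
        rw [e]
        simpa using hlev
      have hRM : R ≤ M * l := hMl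
      calc ∑ i, d (π i u) (π i v)
          ≤ ∑ i, (3 * R + l) * (if key i u = key i v then (0 : ℝ) else 1) :=
            Finset.sum_le_sum fun i _ => hterm i
        _ = (3 * R + l) * ∑ k : Fin M, ∑ ω : (Fin (q0 + 2) → Fin M),
              (if key (k, ω) u = key (k, ω) v then (0 : ℝ) else 1) := by
            rw [← Finset.mul_sum, Fintype.sum_prod_type]
        _ ≤ (3 * R + l) * ∑ k : Fin M, ((M : ℝ) ^ (q0 + 2) * (if J k u ≠ J k v then (1 : ℝ) else 0) +
              q * (M : ℝ) ^ (q0 + 2) * (40 * q ^ 2 * (l / R) + 1 / M)) := by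
            gcongr with k _
            exact hsumk k
        _ = (3 * R + l) * ((M : ℝ) ^ (q0 + 2) * ∑ k : Fin M, (if J k u ≠ J k v then (1 : ℝ) else 0) +
              M * (q * (M : ℝ) ^ (q0 + 2) * (40 * q ^ 2 * (l / R) + 1 / M))) := by
            rw [Finset.sum_add_distrib, ← Finset.mul_sum, Finset.sum_const, Finset.card_univ,
              Fintype.card_fin, nsmul_eq_mul]
        _ ≤ (3 * R + l) * ((M : ℝ) ^ (q0 + 2) * (M * (18 / 5 * (l / R)) + 1) +
              M * (q * (M : ℝ) ^ (q0 + 2) * (40 * q ^ 2 * (l / R) + 1 / M))) := by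
            gcongr
        _ = ((M : ℝ) * (M : ℝ) ^ (q0 + 2)) *
              ((3 * R + l) * ((18 / 5 + 40 * q ^ 3) * (l / R) + (1 + q) / M)) := by
            field_simp
            ring
        _ ≤ ((M : ℝ) * (M : ℝ) ^ (q0 + 2)) * (200 * q ^ 3 * l) := by
            refine mul_le_mul_of_nonneg_left ?_ hW.le
            exact fin_aux hq2 hR0 hl0 hMr hbig hRM
  · exact hπ3 i v

end Vale.Agent.P235.H347K
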