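/-
P235-M (C3) for the letter trees of helper549 (Words.lean), and for the flux.  By helper347.
-/
import Vale.Agent.P235.R2.H347.Pref
import Vale.Agent.P235.R2.H549.Words

namespace VPBruhat

open Equiv Finset
open scoped Pointwise

variable {n : ℕ}

theorem inc_flux (a : ℕ) : Inc (fun v : Perm (Fin n) => (flux a v : ℝ)) := fun _ _ h => by
  show (flux a _ : ℝ) ≤ (flux a _ : ℝ)
  exact_mod_cast flux_up h a

namespace BT

theorem Letters.isLet : {t : BT (Fin n)} → t.Letters → t.IsLet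
  | leaf B, h => by
      rcases h with rfl | ⟨j, hj, rfl⟩
      · exact Or.inl (Finset.Subset.refl _)
      · refine Or.inr ⟨⟨j, Nat.lt_of_succ_lt hj⟩, ⟨j + 1, hj⟩,
          Fin.lt_def.2 (Nat.lt_succ_self j), fun x hx => ?_⟩
        rw [Finset.mem_insert, Finset.mem_singleton]
        exact (mem_letter hj).1 hx
  | node _ _, h => ⟨h.1.isLet, h.2.isLet⟩

/-- **(C3), prefixes**, for letter trees -/
theorem Letters.pre_mono {t : BT (Fin n)} (ht : t.Letters) {P : Perm (Fin n) → ℝ}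
    (h0 : ∀ z ∈ t.set, 0 ≤ P z) (hinc : IncOn t.set P) {F : Perm (Fin n) → ℝ} (hF : Inc F)
    {m k : ℕ} (hmk : m ≤ k) :
    ∑ c, t.law P c * F (t.pre m c) ≤ ∑ c, t.law P c * F (t.pre k c) :=
  BT.pre_mono t ht.ok ht.isLet h0 hinc hF hmk

/-- **(C3), suffixes**, for letter trees -/
theorem Letters.suf_mono {t : BT (Fin n)} (ht : t.Letters) {P : Perm (Fin n) → ℝ}
    (h0 : ∀ z ∈ t.set, 0 ≤ P z) (hinc : IncOn t.set P) {F : Perm (Fin n) → ℝ} (hF : Inc F)
    {m k : ℕ} (hmk : m ≤ k) :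
    ∑ c, t.law P c * F (t.val c * (t.pre k c)⁻¹) ≤
      ∑ c, t.law P c * F (t.val c * (t.pre m c)⁻¹) :=
  BT.suf_mono t ht.ok ht.isLet h0 hinc hF hmk

theorem Letters.flux_pre_mono {t : BT (Fin n)} (ht : t.Letters) {P : Perm (Fin n) → ℝ}
    (h0 : ∀ z ∈ t.set, 0 ≤ P z) (hinc : IncOn t.set P) (a : ℕ) {m k : ℕ} (hmk : m ≤ k) :
    ∑ c, t.law P c * (flux a (t.pre m c) : ℝ) ≤ ∑ c, t.law P c * (flux a (t.pre k c) : ℝ) :=
  ht.pre_mono h0 hinc (inc_flux a) hmk

theorem Letters.flux_suf_mono {t : BT (Fin n)} (ht : t.Letters) {P : Perm (Fin n) → ℝ}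
    (h0 : ∀ z ∈ t.set, 0 ≤ P z) (hinc : IncOn t.set P) (a : ℕ) {m k : ℕ} (hmk : m ≤ k) :
    ∑ c, t.law P c * (flux a (t.val c * (t.pre k c)⁻¹) : ℝ) ≤
      ∑ c, t.law P c * (flux a (t.val c * (t.pre m c)⁻¹) : ℝ) :=
  ht.suf_mono h0 hinc (inc_flux a) hmk

/-- restriction of an expectation to the left child -/
theorem sum_law_left (l r : BT (Fin n)) (P : Perm (Fin n) → ℝ) (f : l.Conf → ℝ) :
    ∑ c, (node l r).law P c * f c.1 = ∑ a, l.law (margR r.set l.set P) a * f a := by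
  show ∑ c : l.Conf × r.Conf, (node l r).law P c * f c.1 = _
  rw [Fintype.sum_prod_type]
  refine Finset.sum_congr rfl fun a _ => ?_
  show ∑ b, (node l r).law P (a, b) * f a = _
  rw [← Finset.sum_mul, sum_right]

/-- restriction of an expectation to the right child -/
theorem sum_law_right (l r : BT (Fin n)) (P : Perm (Fin n) → ℝ) (f : r.Conf → ℝ) :
    ∑ c, (node l r).law P c * f c.2 = ∑ b, r.law (margL r.set l.set P) b * f b := by
  show ∑ c : l.Conf × r.Conf, (node l r).law P c * f c.2 = _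
  rw [Fintype.sum_prod_type, Finset.sum_comm]
  refine Finset.sum_congr rfl fun b _ => ?_
  show ∑ a, (node l r).law P (a, b) * f b = _
  rw [← Finset.sum_mul, sum_left]

end BT

end VPBruhat
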