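import Vale.Agent.P235.R2.H721.UniSpec
import Mathlib.NumberTheory.Harmonic.Bounds
import Mathlib.Data.Fin.Tuple.Sort

/-!
P235-M (helper347): row Z1 of `R2/H721/UniSpec.lean`, the mean number of records.
-/

set_option autoImplicit false
set_option linter.all false

namespace Vale.Agent.P235.H347K

open Vale.Agent.P235 Vale.Agent.P235.Kpr

theorem first_card {m : ℕ} (R : Finset (Fin m)) {i : Fin m} (hi : i ∈ R) :
    R.card * (Finset.univ.filter fun π : Equiv.Perm (Fin m) => ∀ j ∈ R, π i ≤ π j).card ≤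
      m.factorial := by
  classical
  set P : Fin m → Finset (Equiv.Perm (Fin m)) :=
    fun i => Finset.univ.filter fun π : Equiv.Perm (Fin m) => ∀ j ∈ R, π i ≤ π j with hP
  have hswap : ∀ a ∈ R, ∀ b ∈ R, ∀ j ∈ R, Equiv.swap a b j ∈ R := by
    intro a ha b hb j hj
    rw [Equiv.swap_apply_def]
    split_ifs
    · exact hb
    · exact ha
    · exact hj
  have hle : ∀ a ∈ R, ∀ b ∈ R, (P a).card ≤ (P b).card := by
    intro a ha b hb
    refine Finset.card_le_card_of_injOn (fun π => π * Equiv.swap a b) ?_ ?_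
    · intro π hπ
      simp only [hP, Finset.coe_filter, Finset.mem_univ, true_and, Set.mem_setOf_eq] at hπ ⊢
      intro j hj
      rw [Equiv.Perm.mul_apply, Equiv.Perm.mul_apply, Equiv.swap_apply_right]
      exact hπ _ (hswap a ha b hb j hj)
    · intro π _ π' _ h
      exact mul_right_cancel h
  have hsum : R.card * (P i).card ≤ ∑ a ∈ R, (P a).card := by
    rw [← smul_eq_mul, ← Finset.sum_const]
    exact Finset.sum_le_sum fun a ha => hle i hi a ha
  refine hsum.trans ?_
  rw [← Finset.card_biUnion]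
  · calc (R.biUnion P).card ≤ (Finset.univ : Finset (Equiv.Perm (Fin m))).card :=
        Finset.card_le_card (Finset.subset_univ _)
      _ = m.factorial := by rw [Finset.card_univ, Fintype.card_perm, Fintype.card_fin]
  · intro a ha b hb hab
    refine Finset.disjoint_left.2 fun π h1 h2 => ?_
    simp only [hP, Finset.mem_filter, Finset.mem_univ, true_and] at h1 h2
    exact hab (π.injective (le_antisymm (h1 b hb) (h2 a ha)))

theorem rowRec : RowRec := by
  classical
  intro m e
  set R : Fin m → Finset (Fin m) := fun i => Finset.univ.filter fun j => e j ≤ e i with hR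
  have hmem : ∀ i, i ∈ R i := fun i => by simp [hR]
  have hpos : ∀ i, (0 : ℝ) < (R i).card := fun i => by
    exact_mod_cast Finset.card_pos.2 ⟨i, hmem i⟩
  have h1 : (∑ π : Equiv.Perm (Fin m), ({i | ∀ j, π j < π i → e i < e j}.ncard : ℝ)) =
      ∑ i : Fin m, ((Finset.univ.filter fun π : Equiv.Perm (Fin m) =>
        ∀ j, π j < π i → e i < e j).card : ℝ) := by
    have a1 : ∀ π : Equiv.Perm (Fin m), ({i | ∀ j, π j < π i → e i < e j}.ncard : ℝ) =
        ∑ i : Fin m, if (∀ j, π j < π i → e i < e j) then (1 : ℝ) else 0 := by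
      intro π
      rw [Set.ncard_eq_toFinset_card', Finset.sum_boole]
      congr 2
      ext i
      simp
    have a2 : ∀ i : Fin m, ((Finset.univ.filter fun π : Equiv.Perm (Fin m) =>
        ∀ j, π j < π i → e i < e j).card : ℝ) =
        ∑ π : Equiv.Perm (Fin m), if (∀ j, π j < π i → e i < e j) then (1 : ℝ) else 0 := by
      intro i
      rw [Finset.sum_boole]
    simp only [a1, a2]
    exact Finset.sum_comm
  rw [h1]
  have h2 : ∀ i : Fin m, ((Finset.univ.filter fun π : Equiv.Perm (Fin m) =>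
        ∀ j, π j < π i → e i < e j).card : ℝ) ≤ m.factorial * ((R i).card : ℝ)⁻¹ := by
    intro i
    have b1 : (Finset.univ.filter fun π : Equiv.Perm (Fin m) =>
        ∀ j, π j < π i → e i < e j).card ≤
        (Finset.univ.filter fun π : Equiv.Perm (Fin m) => ∀ j ∈ R i, π i ≤ π j).card := by
      refine Finset.card_le_card fun π hπ => ?_
      simp only [Finset.mem_filter, Finset.mem_univ, true_and, hR] at hπ ⊢
      intro j hj
      by_contra hlt
      exact absurd (hπ j (not_le.1 hlt)) (not_lt.2 hj)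
    have b2 := first_card (R i) (hmem i)
    have b3 : ((R i).card : ℝ) * ((Finset.univ.filter fun π : Equiv.Perm (Fin m) =>
        ∀ j ∈ R i, π i ≤ π j).card : ℝ) ≤ m.factorial := by exact_mod_cast b2
    have b4 : ((Finset.univ.filter fun π : Equiv.Perm (Fin m) =>
        ∀ j, π j < π i → e i < e j).card : ℝ) ≤
        ((Finset.univ.filter fun π : Equiv.Perm (Fin m) => ∀ j ∈ R i, π i ≤ π j).card : ℝ) := by
      exact_mod_cast b1
    refine b4.trans ?_
    rw [← div_eq_mul_inv, le_div_iff₀ (hpos i), mul_comm]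
    exact b3
  have h3 : ∑ i : Fin m, ((R i).card : ℝ)⁻¹ ≤ 1 + Real.log m := by
    set s := Tuple.sort e with hs
    have c1 : ∑ i : Fin m, ((R i).card : ℝ)⁻¹ = ∑ k : Fin m, ((R (s k)).card : ℝ)⁻¹ :=
      (Equiv.sum_comp s fun i => ((R i).card : ℝ)⁻¹).symm
    have hmono : Monotone (e ∘ s) := Tuple.monotone_sort e
    have c2 : ∀ k : Fin m, ((k : ℕ) : ℝ) + 1 ≤ ((R (s k)).card : ℝ) := by
      intro k
      have : ((Finset.Iic k).map s.toEmbedding).card ≤ (R (s k)).card := by
        refine Finset.card_le_card fun j hj => ?_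
        rw [Finset.mem_map] at hj
        obtain ⟨l, hl, rfl⟩ := hj
        simp only [hR, Finset.mem_filter, Finset.mem_univ, true_and]
        exact hmono (Finset.mem_Iic.1 hl)
      rw [Finset.card_map, Fin.card_Iic] at this
      exact_mod_cast this
    have c3 : ∑ k : Fin m, ((R (s k)).card : ℝ)⁻¹ ≤ ∑ k : Fin m, (((k : ℕ) : ℝ) + 1)⁻¹ := by
      refine Finset.sum_le_sum fun k _ => ?_
      exact inv_anti₀ (by positivity) (c2 k)
    have c4 : ∑ k : Fin m, (((k : ℕ) : ℝ) + 1)⁻¹ = ((harmonic m : ℚ) : ℝ) := by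
      rw [harmonic, Fin.sum_univ_eq_sum_range (fun k => ((k : ℝ) + 1)⁻¹) m]
      push_cast
      rfl
    rw [c1]
    refine c3.trans ?_
    rw [c4]
    exact harmonic_le_one_add_log m
  calc ∑ i : Fin m, ((Finset.univ.filter fun π : Equiv.Perm (Fin m) =>
        ∀ j, π j < π i → e i < e j).card : ℝ)
      ≤ ∑ i : Fin m, m.factorial * ((R i).card : ℝ)⁻¹ := Finset.sum_le_sum fun i _ => h2 i
    _ = m.factorial * ∑ i : Fin m, ((R i).card : ℝ)⁻¹ := by rw [Finset.mul_sum]
    _ ≤ m.factorial * (1 + Real.log m) := mul_le_mul_of_nonneg_left h3 (Nat.cast_nonneg _)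

end Vale.Agent.P235.H347K
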